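import Mathlib

/-!
# P205: circle-invariant metrics on the torus: interface (helper20)

Metric `E dx² + 2 F dx dθ + G dθ²` on `ℝ²/ℤ²`, coefficients functions of `x`.
Immersion `(x,θ) ↦ (R cos τ · e^{2πi(Nθ+φ)}, R sin τ · e^{2πi(Nθ+ψ)})`, `R = √G/(2πN)`,
`τ = arctan (exp u)`, `u = c + l sin (2πx)`, `φ' = N (F/G - w tan τ)`, `ψ' = N (F/G + w cot τ)`,
`w² = (E - F²/G - R'² - R² τ'²)/G`.
-/

namespace Vale.P205
open Real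

/-- `u = c + l sin (2πx)` -/
noncomputable def uu (c l x : ℝ) : ℝ := c + l * sin (2 * π * x)

/-- `τ'²/(4π²)` for `τ = arctan (exp u)` -/
noncomputable def tt (c l x : ℝ) : ℝ := (l * cos (2 * π * x)) ^ 2 / (4 * cosh (uu c l x) ^ 2)

/-- `w` -/
noncomputable def ww (h r : ℝ → ℝ) (N : ℕ) (c l x : ℝ) : ℝ :=
  √(h x - (r x + tt c l x) / (N : ℝ) ^ 2)

/-- IVT : two nested intermediate value arguments.
Proof. `√h ≥ m > 0` on `[0,1]`, `r ≤ ρ`, `W = ∫ √h`. Choose `Λ` with `m² e^Λ / 18 > 4 W²`, `N` large: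
`w² ≥ h/2` for all `l ∈ [0,Λ]` and all `c`. Targets `P* = α + p/N`, `Q* = -α + q/N` in
`[√3 W, √3 W + 1/N]`, so `3 W² ≤ P* Q* < 4 W²`. For fixed `l`, `c ↦ w e^u` is pointwise strictly
increasing: with `s = e^{2u}`, `(w e^u)² = κ s - ε s²/(1+s)²`, `κ = h - r/N²`,
`ε = (l cos)²/N²`, and `κ > 2 ε`. So there is a unique `c(l)` with `P(c(l),l) = P*`, continuous in
`l` (bracketing). `Q(c(0),0) = W_N²/P* < Q*`; at `l = Λ`: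
`P Q ≥ (1/2) ∫ √h e^{Λ sin} ∫ √h e^{-Λ sin} ≥ m² e^Λ/18 > P* Q*`. IVT in `l`. -/
def StmtIVT : Prop :=
  ∀ (h r : ℝ → ℝ) (α : ℝ), Continuous h → Continuous r → (∀ x, 0 < h x) → (∀ x, 0 ≤ r x) →
    (∀ x, h (x + 1) = h x) → (∀ x, r (x + 1) = r x) →
    ∃ (N : ℕ) (c l : ℝ) (p q : ℤ), 1 ≤ N ∧
      (∀ x, 0 < h x - (r x + tt c l x) / (N : ℝ) ^ 2) ∧
      (N : ℝ) * (α - ∫ x in (0 : ℝ)..1, ww h r N c l x * exp (uu c l x)) = p ∧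
      (N : ℝ) * (α + ∫ x in (0 : ℝ)..1, ww h r N c l x * exp (- uu c l x)) = q

/-- GEO : the map. Smooth `1`-periodic data, `T ∈ (0, π/2)`, and the algebraic identity; the two
phases close up. -/
def StmtGEO : Prop :=
  ∀ (E F G R T w : ℝ → ℝ) (N : ℕ) (p q : ℤ), 1 ≤ N →
    ContDiff ℝ (⊤ : ℕ∞) F → ContDiff ℝ (⊤ : ℕ∞) G →
    ContDiff ℝ (⊤ : ℕ∞) R → ContDiff ℝ (⊤ : ℕ∞) T → ContDiff ℝ (⊤ : ℕ∞) w →
    (∀ x, F (x + 1) = F x) → (∀ x, G (x + 1) = G x) → (∀ x, R (x + 1) = R x) →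
    (∀ x, T (x + 1) = T x) → (∀ x, w (x + 1) = w x) → (∀ x, 0 < G x) →
    (∀ x, cos (T x) ≠ 0) → (∀ x, sin (T x) ≠ 0) →
    (∀ x, (2 * π * N * R x) ^ 2 = G x) →
    (∀ x, E x = deriv R x ^ 2 + R x ^ 2 * deriv T x ^ 2 + F x ^ 2 / G x + G x * w x ^ 2) →
    (∫ x in (0 : ℝ)..1, (N : ℝ) * (F x / G x - w x * (sin (T x) / cos (T x)))) = p →
    (∫ x in (0 : ℝ)..1, (N : ℝ) * (F x / G x + w x * (cos (T x) / sin (T x)))) = q →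
    ∃ f : ℝ × ℝ → EuclideanSpace ℝ (Fin 4), ContDiff ℝ (⊤ : ℕ∞) f ∧
      (∀ x y, f (x + 1, y) = f (x, y)) ∧ (∀ x y, f (x, y + 1) = f (x, y)) ∧
      ∀ z : ℝ × ℝ, inner ℝ (fderiv ℝ f z (1, 0)) (fderiv ℝ f z (1, 0)) = E z.1 ∧
        inner ℝ (fderiv ℝ f z (1, 0)) (fderiv ℝ f z (0, 1)) = F z.1 ∧
        inner ℝ (fderiv ℝ f z (0, 1)) (fderiv ℝ f z (0, 1)) = G z.1

end Vale.P205
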