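import Vale.Agent.P205.GEO

namespace Vale.P205.FIN
open Real

theorem uu_C (c l : ℝ) : ContDiff ℝ (⊤ : ℕ∞) (uu c l) := by
  unfold uu
  exact contDiff_const.add (contDiff_const.mul (contDiff_const.mul contDiff_id).sin)

theorem uu_d (c l x : ℝ) : HasDerivAt (uu c l) (l * (cos (2 * π * x) * (2 * π))) x := by
  unfold uu
  have h := ((((hasDerivAt_id x).const_mul (2 * π)).sin).const_mul l).const_add c
  simpa using h

theorem uu_p (c l x : ℝ) : uu c l (x + 1) = uu c l x := by
  unfold uu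
  rw [show 2 * π * (x + 1) = 2 * π * x + 2 * π by ring, sin_add_two_pi]

theorem tt_C (c l : ℝ) : ContDiff ℝ (⊤ : ℕ∞) (tt c l) := by
  unfold tt
  refine ContDiff.div ?_ ?_ ?_
  · exact (contDiff_const.mul (contDiff_const.mul contDiff_id).cos).pow 2
  · exact contDiff_const.mul ((uu_C c l).cosh.pow 2)
  · intro x
    have := cosh_pos (uu c l x)
    positivity

theorem tt_p (c l x : ℝ) : tt c l (x + 1) = tt c l x := by
  unfold tt
  rw [uu_p, show 2 * π * (x + 1) = 2 * π * x + 2 * π by ring, cos_add_two_pi]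

theorem Td (c l x : ℝ) : deriv (fun x => arctan (exp (uu c l x))) x ^ 2 = 4 * π ^ 2 * tt c l x := by
  have h := ((uu_d c l x).exp).arctan
  rw [h.deriv]
  unfold tt
  rw [cosh_eq, exp_neg]
  have he : 0 < exp (uu c l x) := exp_pos _
  have he2 : 0 < 1 + exp (uu c l x) ^ 2 := by positivity
  generalize exp (uu c l x) = e at *
  field_simp
  ring

theorem main (hI : StmtIVT) : ∀ E F G : ℝ → ℝ,
    ContDiff ℝ (⊤ : ℕ∞) E → ContDiff ℝ (⊤ : ℕ∞) F → ContDiff ℝ (⊤ : ℕ∞) G →
    (∀ x, E (x + 1) = E x) → (∀ x, F (x + 1) = F x) → (∀ x, G (x + 1) = G x) →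
    (∀ x, 0 < G x) → (∀ x, 0 < E x * G x - F x ^ 2) →
    ∃ f : ℝ × ℝ → EuclideanSpace ℝ (Fin 4), ContDiff ℝ (⊤ : ℕ∞) f ∧
      (∀ x y, f (x + 1, y) = f (x, y)) ∧ (∀ x y, f (x, y + 1) = f (x, y)) ∧
      ∀ z : ℝ × ℝ, inner ℝ (fderiv ℝ f z (1, 0)) (fderiv ℝ f z (1, 0)) = E z.1 ∧
        inner ℝ (fderiv ℝ f z (1, 0)) (fderiv ℝ f z (0, 1)) = F z.1 ∧
        inner ℝ (fderiv ℝ f z (0, 1)) (fderiv ℝ f z (0, 1)) = G z.1 := by
  intro E F G hE hF hG pE pF pG hGp hD
  have hGn : ∀ x, G x ≠ 0 := fun x => (hGp x).ne'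
  set S : ℝ → ℝ := fun x => √(G x) with hS
  have SC : ContDiff ℝ (⊤ : ℕ∞) S := hG.sqrt hGn
  have S2 : ∀ x, S x ^ 2 = G x := fun x => sq_sqrt (hGp x).le
  have pS : ∀ x, S (x + 1) = S x := fun x => by simp only [hS, pG]
  have SdC : ContDiff ℝ (⊤ : ℕ∞) (deriv S) := (contDiff_infty_iff_deriv.1 SC).2
  have pSd : ∀ x, deriv S (x + 1) = deriv S x := by
    intro x
    rw [← deriv_comp_add_const]
    congr 1
    funext y
    exact pS y
  set h : ℝ → ℝ := fun x => (E x - F x ^ 2 / G x) / G x with hh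
  set r : ℝ → ℝ := fun x => (deriv S x) ^ 2 / (4 * π ^ 2 * G x) with hr
  have hC : ContDiff ℝ (⊤ : ℕ∞) h := (hE.sub ((hF.pow 2).div hG hGn)).div hG hGn
  have rC : ContDiff ℝ (⊤ : ℕ∞) r := (SdC.pow 2).div (contDiff_const.mul hG)
    (fun x => by have := hGp x; positivity)
  have h0 : ∀ x, 0 < h x := by
    intro x
    have h1 := hGp x
    have h2 := hD x
    have : h x = (E x * G x - F x ^ 2) / G x ^ 2 := by
      simp only [hh]
      field_simp
    rw [this]
    positivity
  have r0 : ∀ x, 0 ≤ r x := by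
    intro x
    have h1 := hGp x
    simp only [hr]
    positivity
  obtain ⟨N, c, l, p, q, hN, hrad, hp, hq⟩ := hI h r (∫ x in (0 : ℝ)..1, F x / G x)
    hC.continuous rC.continuous h0 r0 (fun x => by simp only [hh, pE, pF, pG])
    (fun x => by simp only [hr, pSd, pG])
  have hNp : (0 : ℝ) < N := by exact_mod_cast hN
  have wC : ContDiff ℝ (⊤ : ℕ∞) (ww h r N c l) := by
    unfold ww
    exact (hC.sub ((rC.add (tt_C c l)).div_const _)).sqrt (fun x => (hrad x).ne')
  have pw : ∀ x, ww h r N c l (x + 1) = ww h r N c l x := by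
    intro x
    unfold ww
    simp only [hh, hr, pE, pF, pG, pSd, tt_p]
  have TC : ContDiff ℝ (⊤ : ℕ∞) (fun x => arctan (exp (uu c l x))) := (uu_C c l).exp.arctan
  have RC : ContDiff ℝ (⊤ : ℕ∞) (fun x => S x / (2 * π * N)) := SC.div_const _
  have hcos : ∀ x, 0 < cos (arctan (exp (uu c l x))) := fun x => cos_arctan_pos _
  have hsin : ∀ x, 0 < sin (arctan (exp (uu c l x))) := by
    intro x
    have h1 := tan_mul_cos (hcos x).ne'
    rw [tan_arctan] at h1
    rw [← h1]
    exact mul_pos (exp_pos _) (hcos x)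
  have hsc : ∀ x, sin (arctan (exp (uu c l x))) / cos (arctan (exp (uu c l x)))
      = exp (uu c l x) := by
    intro x
    rw [← tan_eq_sin_div_cos, tan_arctan]
  have hcs : ∀ x, cos (arctan (exp (uu c l x))) / sin (arctan (exp (uu c l x)))
      = exp (- uu c l x) := by
    intro x
    rw [exp_neg]
    have h1 := congrArg (fun y => y⁻¹) (hsc x)
    simp only [inv_div] at h1
    exact h1
  have iF : IntervalIntegrable (fun x => F x / G x) MeasureTheory.volume 0 1 :=
    (hF.div hG hGn).continuous.intervalIntegrable _ _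
  have i1 : IntervalIntegrable (fun x => ww h r N c l x * exp (uu c l x))
      MeasureTheory.volume 0 1 :=
    (wC.mul (uu_C c l).exp).continuous.intervalIntegrable _ _
  have i2 : IntervalIntegrable (fun x => ww h r N c l x * exp (- uu c l x))
      MeasureTheory.volume 0 1 :=
    (wC.mul (uu_C c l).neg.exp).continuous.intervalIntegrable _ _
  refine GEO.thm E F G (fun x => S x / (2 * π * N)) (fun x => arctan (exp (uu c l x)))
    (ww h r N c l) N p q hN hF hG RC TC wC pF pG (fun x => by simp only [pS])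
    (fun x => by simp only [uu_p]) pw hGp (fun x => (hcos x).ne') (fun x => (hsin x).ne') ?_ ?_
    ?_ ?_
  · intro x
    rw [← S2 x]
    field_simp
  · intro x
    have hGx := hGp x
    rw [Td]
    have e1 : deriv (fun x => S x / (2 * π * N)) x = deriv S x / (2 * π * N) := by
      rw [deriv_div_const]
    have e2 : ww h r N c l x ^ 2 = h x - (r x + tt c l x) / (N : ℝ) ^ 2 := by
      unfold ww
      exact sq_sqrt (hrad x).le
    rw [e1, e2]
    have e3 : (S x / (2 * π * N)) ^ 2 = G x / (2 * π * N) ^ 2 := by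
      rw [div_pow, S2]
    rw [e3]
    simp only [hh, hr]
    generalize tt c l x = t
    generalize deriv S x = s
    field_simp
    ring
  · simp only [hsc]
    rw [intervalIntegral.integral_const_mul, intervalIntegral.integral_sub iF i1]
    exact hp
  · simp only [hcs]
    rw [intervalIntegral.integral_const_mul, intervalIntegral.integral_add iF i2]
    exact hq

end Vale.P205.FIN
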