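import Vale.Agent.P205.Defs

namespace Vale.P205.GEO
open Real

/-- primitive of a smooth function -/
theorem prim {a : ℝ → ℝ} (ha : ContDiff ℝ (⊤ : ℕ∞) a) (hp : ∀ x, a (x + 1) = a x) {p : ℝ}
    (hi : ∫ x in (0 : ℝ)..1, a x = p) :
    ∃ g : ℝ → ℝ, ContDiff ℝ (⊤ : ℕ∞) g ∧ (∀ x, HasDerivAt g (a x) x) ∧
      (∀ x, g (x + 1) = g x + p) := by
  have hd : ∀ x, HasDerivAt (fun u => ∫ t in (0 : ℝ)..u, a t) (a x) x := by
    intro x
    exact intervalIntegral.integral_hasDerivAt_right (ha.continuous.intervalIntegrable _ _)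
      (ha.continuous.stronglyMeasurableAtFilter _ _) ha.continuous.continuousAt
  refine ⟨fun u => ∫ t in (0 : ℝ)..u, a t, ?_, hd, ?_⟩
  · rw [contDiff_infty_iff_deriv]
    refine ⟨fun x => (hd x).differentiableAt, ?_⟩
    have : deriv (fun u => ∫ t in (0 : ℝ)..u, a t) = a := by
      funext x
      exact (hd x).deriv
    rw [this]
    exact ha
  · intro x
    have h1 := intervalIntegral.integral_add_adjacent_intervals
      (ha.continuous.intervalIntegrable (μ := MeasureTheory.volume) 0 x)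
      (ha.continuous.intervalIntegrable (μ := MeasureTheory.volume) x (x + 1))
    have h2 : Function.Periodic a 1 := hp
    have h3 := h2.intervalIntegral_add_eq x 0
    rw [zero_add] at h3
    show (∫ t in (0 : ℝ)..(x + 1), a t) = (∫ t in (0 : ℝ)..x, a t) + p
    rw [← h1, h3, hi]

/-- derivative of one cosine coordinate -/
theorem cosd {A g : ℝ → ℝ} {A' g' : ℝ} (N : ℕ) (z : ℝ × ℝ) (hA : HasDerivAt A A' z.1)
    (hg : HasDerivAt g g' z.1) :
    ∃ L : ℝ × ℝ →L[ℝ] ℝ, HasFDerivAt (fun z : ℝ × ℝ => A z.1 * cos (2 * π * (N * z.2 + g z.1))) L z ∧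
      L (1, 0) = A' * cos (2 * π * (N * z.2 + g z.1))
        - A z.1 * (2 * π * g') * sin (2 * π * (N * z.2 + g z.1)) ∧
      L (0, 1) = - (A z.1 * (2 * π * N) * sin (2 * π * (N * z.2 + g z.1))) := by
  have f1 : HasFDerivAt (fun z : ℝ × ℝ => z.1) (ContinuousLinearMap.fst ℝ ℝ ℝ) z := hasFDerivAt_fst
  have f2 : HasFDerivAt (fun z : ℝ × ℝ => z.2) (ContinuousLinearMap.snd ℝ ℝ ℝ) z := hasFDerivAt_snd
  have h1 := hA.comp_hasFDerivAt z f1
  have h2 := hg.comp_hasFDerivAt z f1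
  have h3 := ((f2.const_mul (N : ℝ)).add h2).const_mul (2 * π)
  have h4 := h1.mul h3.cos
  refine ⟨_, h4, ?_, ?_⟩
  · simp
    ring
  · simp
    ring

/-- derivative of one sine coordinate -/
theorem sind {A g : ℝ → ℝ} {A' g' : ℝ} (N : ℕ) (z : ℝ × ℝ) (hA : HasDerivAt A A' z.1)
    (hg : HasDerivAt g g' z.1) :
    ∃ L : ℝ × ℝ →L[ℝ] ℝ, HasFDerivAt (fun z : ℝ × ℝ => A z.1 * sin (2 * π * (N * z.2 + g z.1))) L z ∧
      L (1, 0) = A' * sin (2 * π * (N * z.2 + g z.1))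
        + A z.1 * (2 * π * g') * cos (2 * π * (N * z.2 + g z.1)) ∧
      L (0, 1) = A z.1 * (2 * π * N) * cos (2 * π * (N * z.2 + g z.1)) := by
  have f1 : HasFDerivAt (fun z : ℝ × ℝ => z.1) (ContinuousLinearMap.fst ℝ ℝ ℝ) z := hasFDerivAt_fst
  have f2 : HasFDerivAt (fun z : ℝ × ℝ => z.2) (ContinuousLinearMap.snd ℝ ℝ ℝ) z := hasFDerivAt_snd
  have h1 := hA.comp_hasFDerivAt z f1
  have h2 := hg.comp_hasFDerivAt z f1
  have h3 := ((f2.const_mul (N : ℝ)).add h2).const_mul (2 * π)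
  have h4 := h1.mul h3.sin
  refine ⟨_, h4, ?_, ?_⟩
  · simp
    ring
  · simp
    ring

theorem coord {f : ℝ × ℝ → EuclideanSpace ℝ (Fin 4)} {z : ℝ × ℝ} (hf : DifferentiableAt ℝ f z)
    (i : Fin 4) {L : ℝ × ℝ →L[ℝ] ℝ} (hL : HasFDerivAt (fun z => f z i) L z) (v : ℝ × ℝ) :
    (fderiv ℝ f z v) i = L v := by
  have h1 := ((EuclideanSpace.proj i : EuclideanSpace ℝ (Fin 4) →L[ℝ] ℝ).hasFDerivAt).comp z
    hf.hasFDerivAt
  have h2 := h1.unique hL
  rw [← h2]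
  rfl

theorem alg1 (a1 b1 a2 b2 s c r r' t' m e w : ℝ) (h1 : a1 ^ 2 + b1 ^ 2 = 1)
    (h2 : a2 ^ 2 + b2 ^ 2 = 1) (h3 : s ^ 2 + c ^ 2 = 1) :
    ((r' * c + r * (-s * t')) * b1 - m * (c * e - w * s) * a1)
        * ((r' * c + r * (-s * t')) * b1 - m * (c * e - w * s) * a1)
      + ((r' * c + r * (-s * t')) * a1 + m * (c * e - w * s) * b1)
        * ((r' * c + r * (-s * t')) * a1 + m * (c * e - w * s) * b1)
      + ((r' * s + r * (c * t')) * b2 - m * (s * e + w * c) * a2)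
        * ((r' * s + r * (c * t')) * b2 - m * (s * e + w * c) * a2)
      + ((r' * s + r * (c * t')) * a2 + m * (s * e + w * c) * b2)
        * ((r' * s + r * (c * t')) * a2 + m * (s * e + w * c) * b2)
      = r' ^ 2 + r ^ 2 * t' ^ 2 + m ^ 2 * e ^ 2 + m ^ 2 * w ^ 2 := by
  have e1 : ((r' * c + r * (-s * t')) * b1 - m * (c * e - w * s) * a1)
        * ((r' * c + r * (-s * t')) * b1 - m * (c * e - w * s) * a1)
      + ((r' * c + r * (-s * t')) * a1 + m * (c * e - w * s) * b1)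
        * ((r' * c + r * (-s * t')) * a1 + m * (c * e - w * s) * b1)
      = ((r' * c + r * (-s * t')) ^ 2 + (m * (c * e - w * s)) ^ 2) * (a1 ^ 2 + b1 ^ 2) := by ring
  have e2 : ((r' * s + r * (c * t')) * b2 - m * (s * e + w * c) * a2)
        * ((r' * s + r * (c * t')) * b2 - m * (s * e + w * c) * a2)
      + ((r' * s + r * (c * t')) * a2 + m * (s * e + w * c) * b2)
        * ((r' * s + r * (c * t')) * a2 + m * (s * e + w * c) * b2)
      = ((r' * s + r * (c * t')) ^ 2 + (m * (s * e + w * c)) ^ 2) * (a2 ^ 2 + b2 ^ 2) := by ring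
  rw [h1] at e1
  rw [h2] at e2
  have e3 : ((r' * c + r * (-s * t')) ^ 2 + (m * (c * e - w * s)) ^ 2) * 1
      + ((r' * s + r * (c * t')) ^ 2 + (m * (s * e + w * c)) ^ 2) * 1
      = (r' ^ 2 + r ^ 2 * t' ^ 2 + m ^ 2 * e ^ 2 + m ^ 2 * w ^ 2) * (s ^ 2 + c ^ 2) := by ring
  rw [h3] at e3
  linarith

theorem alg2 (a1 b1 a2 b2 s c r r' t' m e w : ℝ) (h1 : a1 ^ 2 + b1 ^ 2 = 1)
    (h2 : a2 ^ 2 + b2 ^ 2 = 1) (h3 : s ^ 2 + c ^ 2 = 1) :
    -(m * c * a1) * ((r' * c + r * (-s * t')) * b1 - m * (c * e - w * s) * a1)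
      + m * c * b1 * ((r' * c + r * (-s * t')) * a1 + m * (c * e - w * s) * b1)
      + -(m * s * a2) * ((r' * s + r * (c * t')) * b2 - m * (s * e + w * c) * a2)
      + m * s * b2 * ((r' * s + r * (c * t')) * a2 + m * (s * e + w * c) * b2)
      = m ^ 2 * e := by
  have e1 : -(m * c * a1) * ((r' * c + r * (-s * t')) * b1 - m * (c * e - w * s) * a1)
      + m * c * b1 * ((r' * c + r * (-s * t')) * a1 + m * (c * e - w * s) * b1)
      = (m ^ 2 * c * (c * e - w * s)) * (a1 ^ 2 + b1 ^ 2) := by ring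
  have e2 : -(m * s * a2) * ((r' * s + r * (c * t')) * b2 - m * (s * e + w * c) * a2)
      + m * s * b2 * ((r' * s + r * (c * t')) * a2 + m * (s * e + w * c) * b2)
      = (m ^ 2 * s * (s * e + w * c)) * (a2 ^ 2 + b2 ^ 2) := by ring
  rw [h1] at e1
  rw [h2] at e2
  have e3 : (m ^ 2 * c * (c * e - w * s)) * 1 + (m ^ 2 * s * (s * e + w * c)) * 1
      = m ^ 2 * e * (s ^ 2 + c ^ 2) := by ring
  rw [h3] at e3
  linarith

theorem alg3 (a1 b1 a2 b2 s c m : ℝ) (h1 : a1 ^ 2 + b1 ^ 2 = 1)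
    (h2 : a2 ^ 2 + b2 ^ 2 = 1) (h3 : s ^ 2 + c ^ 2 = 1) :
    -(m * c * a1) * -(m * c * a1) + m * c * b1 * (m * c * b1)
      + -(m * s * a2) * -(m * s * a2) + m * s * b2 * (m * s * b2) = m ^ 2 := by
  have e1 : -(m * c * a1) * -(m * c * a1) + m * c * b1 * (m * c * b1)
      = (m * c) ^ 2 * (a1 ^ 2 + b1 ^ 2) := by ring
  have e2 : -(m * s * a2) * -(m * s * a2) + m * s * b2 * (m * s * b2)
      = (m * s) ^ 2 * (a2 ^ 2 + b2 ^ 2) := by ring
  rw [h1] at e1
  rw [h2] at e2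
  have e3 : (m * c) ^ 2 * 1 + (m * s) ^ 2 * 1 = m ^ 2 * (s ^ 2 + c ^ 2) := by ring
  rw [h3] at e3
  linarith

theorem thm : StmtGEO := by
  intro E F G R T w N p q hN hF hG hR hT hw pF pG pR pT pw hGp hc hs hRG hE hP hQ
  have hGn : ∀ x, G x ≠ 0 := fun x => (hGp x).ne'
  have ccos : ContDiff ℝ (⊤ : ℕ∞) (fun x => cos (T x)) := hT.cos
  have csin : ContDiff ℝ (⊤ : ℕ∞) (fun x => sin (T x)) := hT.sin
  have hFG : ContDiff ℝ (⊤ : ℕ∞) (fun x => F x / G x) := hF.div hG hGn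
  have ha : ContDiff ℝ (⊤ : ℕ∞)
      (fun x => (N : ℝ) * (F x / G x - w x * (sin (T x) / cos (T x)))) :=
    contDiff_const.mul (hFG.sub (hw.mul (csin.div ccos hc)))
  have hb : ContDiff ℝ (⊤ : ℕ∞)
      (fun x => (N : ℝ) * (F x / G x + w x * (cos (T x) / sin (T x)))) :=
    contDiff_const.mul (hFG.add (hw.mul (ccos.div csin hs)))
  obtain ⟨g, gC, gd, gp⟩ := prim ha (by intro x; simp only [pF, pG, pT, pw]) hP
  obtain ⟨k, kC, kd, kp⟩ := prim hb (by intro x; simp only [pF, pG, pT, pw]) hQ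
  have dR : ∀ x, HasDerivAt R (deriv R x) x := fun x =>
    ((hR.differentiable (by simp)) x).hasDerivAt
  have dT : ∀ x, HasDerivAt T (deriv T x) x := fun x =>
    ((hT.differentiable (by simp)) x).hasDerivAt
  have dA : ∀ x, HasDerivAt (fun x => R x * cos (T x))
      (deriv R x * cos (T x) + R x * (- sin (T x) * deriv T x)) x := fun x =>
    (dR x).mul (dT x).cos
  have dB : ∀ x, HasDerivAt (fun x => R x * sin (T x))
      (deriv R x * sin (T x) + R x * (cos (T x) * deriv T x)) x := fun x =>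
    (dR x).mul (dT x).sin
  let f : ℝ × ℝ → EuclideanSpace ℝ (Fin 4) := fun z => WithLp.toLp 2
    ![(R z.1 * cos (T z.1)) * cos (2 * π * (N * z.2 + g z.1)),
      (R z.1 * cos (T z.1)) * sin (2 * π * (N * z.2 + g z.1)),
      (R z.1 * sin (T z.1)) * cos (2 * π * (N * z.2 + k z.1)),
      (R z.1 * sin (T z.1)) * sin (2 * π * (N * z.2 + k z.1))]
  have arg1 : ContDiff ℝ (⊤ : ℕ∞) (fun z : ℝ × ℝ => 2 * π * (N * z.2 + g z.1)) :=
    contDiff_const.mul ((contDiff_const.mul contDiff_snd).add (gC.comp contDiff_fst))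
  have arg2 : ContDiff ℝ (⊤ : ℕ∞) (fun z : ℝ × ℝ => 2 * π * (N * z.2 + k z.1)) :=
    contDiff_const.mul ((contDiff_const.mul contDiff_snd).add (kC.comp contDiff_fst))
  have amp1 : ContDiff ℝ (⊤ : ℕ∞) (fun z : ℝ × ℝ => R z.1 * cos (T z.1)) :=
    (hR.mul ccos).comp contDiff_fst
  have amp2 : ContDiff ℝ (⊤ : ℕ∞) (fun z : ℝ × ℝ => R z.1 * sin (T z.1)) :=
    (hR.mul csin).comp contDiff_fst
  have hf : ContDiff ℝ (⊤ : ℕ∞) f := by
    rw [contDiff_euclidean]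
    intro i
    fin_cases i
    · exact amp1.mul arg1.cos
    · exact amp1.mul arg1.sin
    · exact amp2.mul arg2.cos
    · exact amp2.mul arg2.sin
  refine ⟨f, hf, ?_, ?_, ?_⟩
  · intro x y
    have e1 : 2 * π * (N * y + (g x + p)) = 2 * π * (N * y + g x) + p * (2 * π) := by ring
    have e2 : 2 * π * (N * y + (k x + q)) = 2 * π * (N * y + k x) + q * (2 * π) := by ring
    show (WithLp.toLp 2 _ : EuclideanSpace ℝ (Fin 4)) = WithLp.toLp 2 _
    simp only [pR, pT, gp, kp, e1, e2, cos_add_int_mul_two_pi, sin_add_int_mul_two_pi]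
  · intro x y
    have e1 : 2 * π * (N * (y + 1) + g x) = 2 * π * (N * y + g x) + N * (2 * π) := by ring
    have e2 : 2 * π * (N * (y + 1) + k x) = 2 * π * (N * y + k x) + N * (2 * π) := by ring
    show (WithLp.toLp 2 _ : EuclideanSpace ℝ (Fin 4)) = WithLp.toLp 2 _
    simp only [e1, e2, cos_add_nat_mul_two_pi, sin_add_nat_mul_two_pi]
  · intro z
    have hfd : DifferentiableAt ℝ f z := (hf.differentiable (by simp)) z
    obtain ⟨L0, h0, h0x, h0y⟩ := cosd N z (dA z.1) (gd z.1)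
    obtain ⟨L1, h1, h1x, h1y⟩ := sind N z (dA z.1) (gd z.1)
    obtain ⟨L2, h2, h2x, h2y⟩ := cosd N z (dB z.1) (kd z.1)
    obtain ⟨L3, h3, h3x, h3y⟩ := sind N z (dB z.1) (kd z.1)
    have c0 := fun v => coord hfd 0 (L := L0) h0 v
    have c1 := fun v => coord hfd 1 (L := L1) h1 v
    have c2 := fun v => coord hfd 2 (L := L2) h2 v
    have c3 := fun v => coord hfd 3 (L := L3) h3 v
    have s1 := sin_sq_add_cos_sq (2 * π * (N * z.2 + g z.1))
    have s2 := sin_sq_add_cos_sq (2 * π * (N * z.2 + k z.1))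
    have st := sin_sq_add_cos_sq (T z.1)
    have hGz := hGn z.1
    have hcz := hc z.1
    have hsz := hs z.1
    have hRz := hRG z.1
    rw [hE z.1]
    simp only [PiLp.inner_apply, Fin.sum_univ_four, c0, c1, c2, c3, h0x, h0y, h1x, h1y, h2x, h2y,
      h3x, h3y, RCLike.inner_apply, conj_trivial]
    have k1 : R z.1 * cos (T z.1) *
        (2 * π * ((N : ℝ) * (F z.1 / G z.1 - w z.1 * (sin (T z.1) / cos (T z.1)))))
        = (2 * π * N * R z.1) * (cos (T z.1) * (F z.1 / G z.1) - w z.1 * sin (T z.1)) := by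
      field_simp
    have k2 : R z.1 * sin (T z.1) *
        (2 * π * ((N : ℝ) * (F z.1 / G z.1 + w z.1 * (cos (T z.1) / sin (T z.1)))))
        = (2 * π * N * R z.1) * (sin (T z.1) * (F z.1 / G z.1) + w z.1 * cos (T z.1)) := by
      field_simp
    have k3 : R z.1 * cos (T z.1) * (2 * π * N) = (2 * π * N * R z.1) * cos (T z.1) := by ring
    have k4 : R z.1 * sin (T z.1) * (2 * π * N) = (2 * π * N * R z.1) * sin (T z.1) := by ring
    have k5 : F z.1 ^ 2 / G z.1 = G z.1 * (F z.1 / G z.1) ^ 2 := by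
      field_simp
    have k6 : F z.1 = G z.1 * (F z.1 / G z.1) := by
      field_simp
    rw [k1, k2, k3, k4, k5]
    refine ⟨?_, ?_, ?_⟩
    · rw [← hRz]
      exact alg1 _ _ _ _ _ _ _ _ _ _ _ _ s1 s2 st
    · refine Eq.trans ?_ k6.symm
      rw [← hRz]
      exact alg2 _ _ _ _ _ _ _ _ _ _ _ _ s1 s2 st
    · rw [← hRz]
      exact alg3 _ _ _ _ _ _ _ s1 s2 st

end Vale.P205.GEO
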