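import Mathlib

namespace Vale.P205.IRR

/-- A continuous function with periods `1` and an irrational `b` is constant. -/
theorem const_of_periods (g : ℝ → ℝ) (hg : Continuous g) (b : ℝ) (hb : Irrational b)
    (h1 : ∀ s, g (s + 1) = g s) (h2 : ∀ s, g (s + b) = g s) : ∀ s, g s = g 0 := by
  -- the set of periods is a closed subgroup
  let P : AddSubgroup ℝ :=
    { carrier := {p | ∀ s, g (s + p) = g s}
      zero_mem' := by intro s; simp
      add_mem' := by
        intro p q hp hq s
        have hp' : ∀ s, g (s + p) = g s := hp
        have hq' : ∀ s, g (s + q) = g s := hq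
        rw [← add_assoc, hq', hp']
      neg_mem' := by
        intro p hp s
        have hp' : ∀ s, g (s + p) = g s := hp
        have := hp' (s + -p)
        rw [← this]
        congr 1
        ring }
  have hcl : IsClosed (P : Set ℝ) := by
    have : (P : Set ℝ) = ⋂ s : ℝ, {p | g (s + p) = g s} := by
      ext p
      simp only [Set.mem_iInter, Set.mem_setOf_eq]
      exact Iff.rfl
    rw [this]
    refine isClosed_iInter fun s => ?_
    exact isClosed_eq (hg.comp (continuous_const.add continuous_id)) continuous_const
  have hdense : Dense (P : Set ℝ) := by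
    have hd : Dense (AddSubgroup.closure {b, 1} : Set ℝ) := by
      rw [dense_addSubgroupClosure_pair_iff]
      simpa using hb
    refine hd.mono ?_
    have : AddSubgroup.closure {b, 1} ≤ P := by
      rw [AddSubgroup.closure_le]
      intro x hx
      rcases hx with rfl | hx
      · exact h2
      · rw [Set.mem_singleton_iff] at hx
        subst hx
        exact h1
    exact this
  intro s
  have hs : s ∈ (P : Set ℝ) := by
    rw [← hcl.closure_eq, hdense.closure_eq]
    trivial
  have := (show ∀ t, g (t + s) = g t from hs) 0
  simpa using this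

theorem thm (k : ℝ × ℝ → ℝ) (hk : Continuous k) (h1 : ∀ z, k (z + (1, 0)) = k z)
    (h2 : ∀ z, k (z + (0, 1)) = k z) (a : ℝ × ℝ) (ha : a.1 ≠ 0)
    (hi : Irrational (a.2 / a.1)) (hinv : ∀ (t : ℝ) z, k (z + t • a) = k z) :
    ∀ z, k z = k 0 := by
  have key : ∀ x y : ℝ, k (x, y) = k (0, y - (a.2 / a.1) * x) := by
    intro x y
    have := hinv (-(x / a.1)) (x, y)
    rw [← this]
    congr 1
    ext
    · simp only [Prod.fst_add, Prod.smul_fst, smul_eq_mul]
      field_simp
      ring
    · simp only [Prod.snd_add, Prod.smul_snd, smul_eq_mul]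
      field_simp
      ring
  have hc := const_of_periods (fun s => k (0, s)) (by fun_prop) (a.2 / a.1) hi
    (fun s => by
      have := h2 (0, s)
      simpa using this)
    (fun s => by
      have e1 := key 1 (s + a.2 / a.1)
      have e2 := h1 (0, s + a.2 / a.1)
      simp only [Prod.mk_add_mk, zero_add, add_zero, mul_one, add_sub_cancel_right] at e1 e2
      show k (0, s + a.2 / a.1) = k (0, s)
      rw [← e1, e2])
  intro z
  obtain ⟨x, y⟩ := z
  rw [key x y]
  exact hc _

end Vale.P205.IRR
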