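import Mathlib

namespace Vale.P205.IRRB

theorem irr (k : ℝ × ℝ → ℝ) (hk : Continuous k) (k1 : ∀ x y, k (x + 1, y) = k (x, y))
    (k2 : ∀ x y, k (x, y + 1) = k (x, y)) (θ : ℝ) (hi : Irrational θ)
    (inv : ∀ t x y : ℝ, k (x + t, y + t * θ) = k (x, y)) : ∀ z, k z = k (0, 0) := by
  let S : AddSubgroup ℝ :=
    { carrier := {t | ∀ s, k (0, s + t) = k (0, s)}
      add_mem' := by
        intro a b ha hb s
        rw [← add_assoc, hb, ha]
      zero_mem' := by
        intro s
        rw [add_zero]
      neg_mem' := by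
        intro a ha s
        have := ha (s + -a)
        rw [← this]
        congr 2
        ring }
  have hS : IsClosed (S : Set ℝ) := by
    have : (S : Set ℝ) = ⋂ s : ℝ, {t | k (0, s + t) = k (0, s)} := by
      ext t
      simp [S]
    rw [this]
    apply isClosed_iInter
    intro s
    exact isClosed_eq (hk.comp (by fun_prop)) continuous_const
  have hθ : θ ∈ S := by
    intro s
    have h1 := inv 1 0 s
    have h2 := k1 0 (s + 1 * θ)
    rw [one_mul] at h1 h2
    rw [← h2]
    exact h1
  have h1 : (1 : ℝ) ∈ S := fun s => k2 0 s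
  have hd : Dense (AddSubgroup.closure {θ, 1} : Set ℝ) := by
    rw [dense_addSubgroupClosure_pair_iff]
    simpa using hi
  have hle : AddSubgroup.closure {θ, 1} ≤ S := by
    rw [AddSubgroup.closure_le]
    intro t ht
    rcases ht with rfl | ht
    · exact hθ
    · rw [Set.mem_singleton_iff] at ht
      rw [ht]
      exact h1
  have hall : ∀ t : ℝ, t ∈ S := by
    intro t
    have h2 : closure (AddSubgroup.closure {θ, 1} : Set ℝ) ⊆ (S : Set ℝ) :=
      hS.closure_subset_iff.2 hle
    rw [hd.closure_eq] at h2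
    exact h2 (Set.mem_univ t)
  intro z
  have h3 := inv z.1 0 (z.2 - z.1 * θ)
  have h4 : ((0 : ℝ) + z.1, z.2 - z.1 * θ + z.1 * θ) = z := by
    ext <;> simp
  rw [h4] at h3
  rw [h3]
  have h5 := hall (z.2 - z.1 * θ) 0
  rw [zero_add] at h5
  exact h5

end Vale.P205.IRRB
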