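import Vale.Agent.P205.Defs

namespace Vale.P205.IVT

open Real Set MeasureTheory intervalIntegral Filter Topology

/-! ### abstract nested intermediate value theorem -/

theorem nested (P Q : ℝ → ℝ → ℝ) (hP : Continuous (fun z : ℝ × ℝ => P z.1 z.2))
    (hQ : Continuous (fun z : ℝ × ℝ => Q z.1 z.2)) (Λ : ℝ) (hΛ : 0 ≤ Λ) (Pt Qt : ℝ)
    (mono : ∀ l ∈ Icc 0 Λ, ∀ c c', c < c' → P c l < P c' l)
    (ex₁ : ∀ l ∈ Icc 0 Λ, ∃ c, P c l ≤ Pt) (ex₂ : ∀ l ∈ Icc 0 Λ, ∃ c, Pt ≤ P c l)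
    (h0 : ∀ c, P c 0 = Pt → Q c 0 ≤ Qt) (h1 : ∀ c, P c Λ = Pt → Qt ≤ Q c Λ) :
    ∃ c, ∃ l ∈ Icc 0 Λ, P c l = Pt ∧ Q c l = Qt := by
  have hex : ∀ l ∈ Icc 0 Λ, ∃ c, P c l = Pt := by
    intro l hl
    obtain ⟨c₁, hc₁⟩ := ex₁ l hl
    obtain ⟨c₂, hc₂⟩ := ex₂ l hl
    have hle : c₁ ≤ c₂ := by
      by_contra hcon
      push Not at hcon
      have := mono l hl _ _ hcon
      linarith
    have hcont : ContinuousOn (fun c => P c l) (Icc c₁ c₂) :=
      (hP.comp (continuous_id.prodMk continuous_const)).continuousOn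
    obtain ⟨c, _, hc⟩ := intermediate_value_Icc hle hcont ⟨hc₁, hc₂⟩
    exact ⟨c, hc⟩
  choose! C hC using hex
  have hCc : ContinuousOn C (Icc 0 Λ) := by
    intro l₀ hl₀
    refine tendsto_order.2 ⟨fun a ha => ?_, fun b hb => ?_⟩
    · have h1 : P a l₀ < Pt := by
        rw [← hC l₀ hl₀]; exact mono l₀ hl₀ _ _ ha
      have h2 : Tendsto (fun l => P a l) (𝓝 l₀) (𝓝 (P a l₀)) :=
        (hP.comp (continuous_const.prodMk continuous_id)).tendsto l₀
      have h3 : ∀ᶠ l in 𝓝 l₀, P a l < Pt := h2.eventually (gt_mem_nhds h1)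
      have h4 : ∀ᶠ l in 𝓝[Icc 0 Λ] l₀, P a l < Pt := h3.filter_mono nhdsWithin_le_nhds
      filter_upwards [h4, self_mem_nhdsWithin] with l hl hl'
      by_contra hcon
      push Not at hcon
      rcases hcon.lt_or_eq with hlt | heq
      · have := mono l hl' _ _ hlt
        rw [hC l hl'] at this
        linarith
      · rw [← heq, hC l hl'] at hl
        exact lt_irrefl _ hl
    · have h1 : Pt < P b l₀ := by
        rw [← hC l₀ hl₀]; exact mono l₀ hl₀ _ _ hb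
      have h2 : Tendsto (fun l => P b l) (𝓝 l₀) (𝓝 (P b l₀)) :=
        (hP.comp (continuous_const.prodMk continuous_id)).tendsto l₀
      have h3 : ∀ᶠ l in 𝓝 l₀, Pt < P b l := h2.eventually (lt_mem_nhds h1)
      have h4 : ∀ᶠ l in 𝓝[Icc 0 Λ] l₀, Pt < P b l := h3.filter_mono nhdsWithin_le_nhds
      filter_upwards [h4, self_mem_nhdsWithin] with l hl hl'
      by_contra hcon
      push Not at hcon
      rcases hcon.lt_or_eq with hlt | heq
      · have := mono l hl' _ _ hlt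
        rw [hC l hl'] at this
        linarith
      · rw [heq, hC l hl'] at hl
        exact lt_irrefl _ hl
  have hQc : ContinuousOn (fun l => Q (C l) l) (Icc 0 Λ) :=
    hQ.comp_continuousOn (hCc.prodMk continuousOn_id)
  obtain ⟨l, hl, hl2⟩ := intermediate_value_Icc hΛ hQc
    ⟨h0 (C 0) (hC 0 ⟨le_rfl, hΛ⟩), h1 (C Λ) (hC Λ ⟨hΛ, le_rfl⟩)⟩
  exact ⟨C l, l, hl, hC l hl, hl2⟩

/-! ### pointwise monotonicity -/

theorem cosh_id (u : ℝ) : exp u ^ 2 / (4 * cosh u ^ 2) = (exp u ^ 2 / (1 + exp u ^ 2)) ^ 2 := by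
  rw [cosh_eq, exp_neg]
  have := exp_pos u
  field_simp
  ring

theorem key (κ ε y z : ℝ) (hε : 0 ≤ ε) (hκ : 2 * ε < κ) (hy : 0 < y) (hyz : y < z) :
    κ * y - ε * (y / (1 + y)) ^ 2 < κ * z - ε * (z / (1 + z)) ^ 2 := by
  have hz : 0 < z := hy.trans hyz
  have h1 : z / (1 + z) - y / (1 + y) = (z - y) / ((1 + z) * (1 + y)) := by
    field_simp
    ring
  have h2 : (z - y) / ((1 + z) * (1 + y)) ≤ z - y := by
    apply div_le_self (by linarith)
    nlinarith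
  have h3 : z / (1 + z) ≤ 1 := by
    rw [div_le_one (by linarith)]; linarith
  have h4 : y / (1 + y) ≤ 1 := by
    rw [div_le_one (by linarith)]; linarith
  have h5 : 0 ≤ (z - y) / ((1 + z) * (1 + y)) := by
    apply div_nonneg (by linarith)
    nlinarith
  have h6 : (z / (1 + z)) ^ 2 - (y / (1 + y)) ^ 2 ≤ 2 * (z - y) := by
    have h7 : (z / (1 + z)) ^ 2 - (y / (1 + y)) ^ 2 =
        (z / (1 + z) - y / (1 + y)) * (z / (1 + z) + y / (1 + y)) := by ring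
    rw [h7, h1]
    calc (z - y) / ((1 + z) * (1 + y)) * (z / (1 + z) + y / (1 + y))
        ≤ (z - y) / ((1 + z) * (1 + y)) * 2 := by
          apply mul_le_mul_of_nonneg_left _ h5
          linarith
      _ ≤ (z - y) * 2 := by
          apply mul_le_mul_of_nonneg_right h2 (by norm_num)
      _ = 2 * (z - y) := by ring
  have h8 : ε * ((z / (1 + z)) ^ 2 - (y / (1 + y)) ^ 2) ≤ ε * (2 * (z - y)) :=
    mul_le_mul_of_nonneg_left h6 hε
  have h9 : 2 * ε * (z - y) < κ * (z - y) := mul_lt_mul_of_pos_right hκ (by linarith)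
  nlinarith

theorem four_cosh (u : ℝ) : 4 ≤ 4 * cosh u ^ 2 := by
  have := one_le_cosh u
  nlinarith

theorem mono_pt (κ ε : ℝ) (hε : 0 ≤ ε) (hκ : 2 * ε < κ) (u v : ℝ) (huv : u < v) :
    √(κ - ε / (4 * cosh u ^ 2)) * exp u < √(κ - ε / (4 * cosh v ^ 2)) * exp v := by
  have e1 : ∀ t : ℝ, √(κ - ε / (4 * cosh t ^ 2)) * exp t
      = √(κ * exp t ^ 2 - ε * (exp t ^ 2 / (1 + exp t ^ 2)) ^ 2) := by
    intro t
    rw [← cosh_id]
    have h1 : κ * exp t ^ 2 - ε * (exp t ^ 2 / (4 * cosh t ^ 2))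
        = (κ - ε / (4 * cosh t ^ 2)) * (exp t * exp t) := by ring
    rw [h1, Real.sqrt_mul' _ (mul_self_nonneg _), Real.sqrt_mul_self (exp_pos t).le]
  rw [e1, e1]
  apply Real.sqrt_lt_sqrt
  · rw [← cosh_id]
    have h1 : κ * exp u ^ 2 - ε * (exp u ^ 2 / (4 * cosh u ^ 2))
        = (κ - ε / (4 * cosh u ^ 2)) * exp u ^ 2 := by ring
    rw [h1]
    apply mul_nonneg _ (sq_nonneg _)
    have h2 : ε / (4 * cosh u ^ 2) ≤ ε / 1 := by
      apply div_le_div_of_nonneg_left hε one_pos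
      have := four_cosh u
      linarith
    rw [div_one] at h2
    linarith
  · apply key κ ε _ _ hε hκ (by positivity)
    have h1 : exp u < exp v := exp_lt_exp.2 huv
    have h2 := exp_pos u
    nlinarith

theorem tt_le (c l x : ℝ) : tt c l x ≤ l ^ 2 / 4 := by
  unfold tt
  have h1 : (l * cos (2 * π * x)) ^ 2 ≤ l ^ 2 := by
    rw [mul_pow]
    have := cos_sq_le_one (2 * π * x)
    nlinarith [sq_nonneg l]
  calc (l * cos (2 * π * x)) ^ 2 / (4 * cosh (uu c l x) ^ 2)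
      ≤ (l * cos (2 * π * x)) ^ 2 / 4 := by
        apply div_le_div_of_nonneg_left (sq_nonneg _) (by norm_num) (four_cosh _)
    _ ≤ l ^ 2 / 4 := by linarith

theorem tt_nonneg (c l x : ℝ) : 0 ≤ tt c l x := by
  unfold tt
  positivity

theorem ww_eq (h r : ℝ → ℝ) (N : ℕ) (c l x : ℝ) :
    ww h r N c l x = √((h x - r x / (N : ℝ) ^ 2) -
      ((l * cos (2 * π * x)) ^ 2 / (N : ℝ) ^ 2) / (4 * cosh (uu c l x) ^ 2)) := by
  unfold ww tt
  congr 1
  rw [add_div, div_right_comm]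
  ring

/-! ### continuity -/

theorem cont_uu : Continuous (fun z : (ℝ × ℝ) × ℝ => uu z.1.1 z.1.2 z.2) := by
  unfold uu
  fun_prop

theorem cont_ww (h r : ℝ → ℝ) (hh : Continuous h) (hr : Continuous r) (N : ℕ) :
    Continuous (fun z : (ℝ × ℝ) × ℝ => ww h r N z.1.1 z.1.2 z.2) := by
  unfold ww tt
  have hc : Continuous (fun z : (ℝ × ℝ) × ℝ => cosh (uu z.1.1 z.1.2 z.2)) :=
    continuous_cosh.comp cont_uu
  have hne : ∀ z : (ℝ × ℝ) × ℝ, 4 * cosh (uu z.1.1 z.1.2 z.2) ^ 2 ≠ 0 := by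
    intro z
    have := four_cosh (uu z.1.1 z.1.2 z.2)
    intro h0
    linarith
  apply Continuous.sqrt
  apply Continuous.sub (hh.comp continuous_snd)
  apply Continuous.div_const
  apply Continuous.add (hr.comp continuous_snd)
  apply Continuous.div (by fun_prop) (by fun_prop) hne

theorem cont_P (h r : ℝ → ℝ) (hh : Continuous h) (hr : Continuous r) (N : ℕ) :
    Continuous (fun z : ℝ × ℝ => ∫ x in (0 : ℝ)..1, ww h r N z.1 z.2 x * exp (uu z.1 z.2 x)) := by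
  apply intervalIntegral.continuous_parametric_intervalIntegral_of_continuous'
  exact (cont_ww h r hh hr N).mul (continuous_exp.comp cont_uu)

theorem cont_Q (h r : ℝ → ℝ) (hh : Continuous h) (hr : Continuous r) (N : ℕ) :
    Continuous (fun z : ℝ × ℝ => ∫ x in (0 : ℝ)..1, ww h r N z.1 z.2 x * exp (- uu z.1 z.2 x)) := by
  apply intervalIntegral.continuous_parametric_intervalIntegral_of_continuous'
  exact (cont_ww h r hh hr N).mul (continuous_exp.comp cont_uu.neg)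

theorem cont_x (h r : ℝ → ℝ) (hh : Continuous h) (hr : Continuous r) (N : ℕ) (c l : ℝ) :
    Continuous (fun x => ww h r N c l x) :=
  (cont_ww h r hh hr N).comp (continuous_const.prodMk continuous_id :
    Continuous (fun x : ℝ => (((c, l) : ℝ × ℝ), x)))

theorem cont_ux (c l : ℝ) : Continuous (fun x => uu c l x) :=
  cont_uu.comp (continuous_const.prodMk continuous_id :
    Continuous (fun x : ℝ => (((c, l) : ℝ × ℝ), x)))

/-! ### bounds of periodic functions -/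

theorem per_bound (f : ℝ → ℝ) (hf : Continuous f) (hp : ∀ x, f (x + 1) = f x) :
    (∃ x₀, ∀ x, f x₀ ≤ f x) ∧ ∃ x₁, ∀ x, f x ≤ f x₁ := by
  have hper : Function.Periodic f 1 := hp
  have hfr : ∀ x, f x = f (Int.fract x) := by
    intro x
    have h1 := hper.sub_zsmul_eq (x := x) ⌊x⌋
    have h2 : x - ⌊x⌋ • (1 : ℝ) = Int.fract x := by
      rw [zsmul_one, Int.self_sub_floor]
    rw [h2] at h1
    exact h1.symm
  have hmem : ∀ x : ℝ, Int.fract x ∈ Icc (0 : ℝ) 1 :=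
    fun x => ⟨Int.fract_nonneg x, (Int.fract_lt_one x).le⟩
  obtain ⟨x₀, _, h₀⟩ := isCompact_Icc.exists_isMinOn (⟨0, by simp⟩ : (Icc (0 : ℝ) 1).Nonempty)
    hf.continuousOn
  obtain ⟨x₁, _, h₁⟩ := isCompact_Icc.exists_isMaxOn (⟨0, by simp⟩ : (Icc (0 : ℝ) 1).Nonempty)
    hf.continuousOn
  refine ⟨⟨x₀, fun x => ?_⟩, ⟨x₁, fun x => ?_⟩⟩
  · rw [hfr x]; exact h₀ (hmem x)
  · rw [hfr x]; exact h₁ (hmem x)

/-! ### the exponential integral -/

theorem exp_int_symm (Λ : ℝ) :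
    ∫ x in (0 : ℝ)..1, exp (-(Λ * sin (2 * π * x))) = ∫ x in (0 : ℝ)..1, exp (Λ * sin (2 * π * x)) := by
  have h := intervalIntegral.integral_comp_sub_left (a := 0) (b := 1)
    (fun x : ℝ => exp (Λ * sin (2 * π * x))) 1
  simp only [sub_zero, sub_self] at h
  rw [← h]
  apply intervalIntegral.integral_congr
  intro x _
  have h1 : 2 * π * (1 - x) = 2 * π - 2 * π * x := by ring
  simp only [h1, sin_two_pi_sub]
  congr 1
  ring

theorem sin_sq_int : ∫ x in (0 : ℝ)..1, sin (2 * π * x) ^ 2 = 1 / 2 := by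
  have h := intervalIntegral.integral_comp_mul_left (a := 0) (b := 1)
    (fun x : ℝ => sin x ^ 2) (c := 2 * π) (by positivity)
  rw [h, mul_zero, mul_one, integral_sin_sq]
  simp
  field_simp

theorem exp_sum (t : ℝ) : 2 + t ^ 2 / 2 ≤ exp t + exp (-t) := by
  rcases le_total 0 t with ht | ht
  · have h1 := Real.quadratic_le_exp_of_nonneg ht
    have h2 := Real.add_one_le_exp (-t)
    linarith
  · have h1 := Real.quadratic_le_exp_of_nonneg (x := -t) (by linarith)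
    have h2 := Real.add_one_le_exp t
    nlinarith

theorem exp_int_ge (Λ : ℝ) : 1 + Λ ^ 2 / 8 ≤ ∫ x in (0 : ℝ)..1, exp (Λ * sin (2 * π * x)) := by
  have h1 : ∫ x in (0 : ℝ)..1, (2 + Λ ^ 2 / 2 * sin (2 * π * x) ^ 2)
      ≤ ∫ x in (0 : ℝ)..1, (exp (Λ * sin (2 * π * x)) + exp (-(Λ * sin (2 * π * x)))) := by
    apply intervalIntegral.integral_mono_on (by norm_num)
    · exact (by fun_prop : Continuous fun x : ℝ =>
        (2 + Λ ^ 2 / 2 * sin (2 * π * x) ^ 2)).intervalIntegrable _ _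
    · exact (by fun_prop : Continuous fun x : ℝ =>
        (exp (Λ * sin (2 * π * x)) + exp (-(Λ * sin (2 * π * x))))).intervalIntegrable _ _
    · intro x _
      have := exp_sum (Λ * sin (2 * π * x))
      nlinarith
  have c1 : Continuous fun x : ℝ => exp (Λ * sin (2 * π * x)) := by fun_prop
  have c2 : Continuous fun x : ℝ => exp (-(Λ * sin (2 * π * x))) := by fun_prop
  have c3 : Continuous fun x : ℝ => Λ ^ 2 / 2 * sin (2 * π * x) ^ 2 := by fun_prop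
  rw [intervalIntegral.integral_add (c1.intervalIntegrable _ _) (c2.intervalIntegrable _ _),
    exp_int_symm, intervalIntegral.integral_add (intervalIntegrable_const)
    (c3.intervalIntegrable _ _), intervalIntegral.integral_const_mul, sin_sq_int,
    intervalIntegral.integral_const] at h1
  simp only [sub_zero, smul_eq_mul, one_mul] at h1
  linarith

/-! ### the argument -/

theorem sinb (Λ l x : ℝ) (hl : l ∈ Icc 0 Λ) :
    -Λ ≤ l * sin (2 * π * x) ∧ l * sin (2 * π * x) ≤ Λ := by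
  have h1 := neg_one_le_sin (2 * π * x)
  have h2 := sin_le_one (2 * π * x)
  have h3 := hl.1
  have h4 := hl.2
  constructor <;> nlinarith

theorem cont_eu (c l : ℝ) : Continuous (fun x => exp (uu c l x)) :=
  continuous_exp.comp (cont_ux c l)

theorem cont_eun (c l : ℝ) : Continuous (fun x => exp (- uu c l x)) :=
  continuous_exp.comp (cont_ux c l).neg

theorem mono_P (h r : ℝ → ℝ) (hh : Continuous h) (hr : Continuous r) (N : ℕ) (Λ m ρ : ℝ)
    (hN2 : (0 : ℝ) < (N : ℝ) ^ 2) (hm0 : 0 < m)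
    (hm : ∀ x, m ≤ h x) (hρ : ∀ x, r x ≤ ρ) (hNb : (ρ + 2 * Λ ^ 2) / (N : ℝ) ^ 2 ≤ m / 2)
    (l : ℝ) (hl : l ∈ Icc 0 Λ) (c c' : ℝ) (hcc : c < c') :
    ∫ x in (0 : ℝ)..1, ww h r N c l x * exp (uu c l x)
      < ∫ x in (0 : ℝ)..1, ww h r N c' l x * exp (uu c' l x) := by
  have hpt : ∀ x, ww h r N c l x * exp (uu c l x) < ww h r N c' l x * exp (uu c' l x) := by
    intro x
    rw [ww_eq, ww_eq]
    apply mono_pt
    · positivity
    · have h1 : (l * cos (2 * π * x)) ^ 2 ≤ Λ ^ 2 := by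
        rw [mul_pow]
        have h2 := cos_sq_le_one (2 * π * x)
        have h3 : l ^ 2 ≤ Λ ^ 2 := pow_le_pow_left₀ hl.1 hl.2 2
        nlinarith [sq_nonneg l, sq_nonneg (cos (2 * π * x))]
      have h4 : r x / (N : ℝ) ^ 2 + 2 * ((l * cos (2 * π * x)) ^ 2 / (N : ℝ) ^ 2)
          ≤ (ρ + 2 * Λ ^ 2) / (N : ℝ) ^ 2 := by
        rw [← mul_div_assoc, ← add_div]
        apply div_le_div_of_nonneg_right _ hN2.le
        have := hρ x
        linarith
      have := hm x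
      linarith
    · unfold uu
      linarith
  apply intervalIntegral.integral_lt_integral_of_continuousOn_of_le_of_exists_lt (by norm_num)
    ((cont_x h r hh hr N c l).mul (cont_eu c l)).continuousOn
    ((cont_x h r hh hr N c' l).mul (cont_eu c' l)).continuousOn
  · intro x _
    exact (hpt x).le
  · exact ⟨0, by simp, hpt 0⟩

theorem small_P (h r : ℝ → ℝ) (hh : Continuous h) (hr : Continuous r) (N : ℕ) (Λ K Pt : ℝ)
    (hK0 : 0 < K) (hPt0 : 0 < Pt)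
    (hwup : ∀ l c x, ww h r N c l x ≤ K)
    (l : ℝ) (hl : l ∈ Icc 0 Λ) :
    ∃ c, ∫ x in (0 : ℝ)..1, ww h r N c l x * exp (uu c l x) ≤ Pt := by
  refine ⟨log (Pt / (K * exp Λ)), ?_⟩
  set c := log (Pt / (K * exp Λ)) with hc
  have hec : exp c = Pt / (K * exp Λ) := exp_log (by positivity)
  have h1 : ∫ x in (0 : ℝ)..1, ww h r N c l x * exp (uu c l x)
      ≤ ∫ x in (0 : ℝ)..1, (Pt : ℝ) := by
    apply intervalIntegral.integral_mono_on (by norm_num)
    · exact ((cont_x h r hh hr N c l).mul (cont_eu c l)).intervalIntegrable _ _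
    · exact intervalIntegrable_const
    · intro x _
      have h2 : ww h r N c l x ≤ K := hwup l c x
      have h3 : exp (uu c l x) ≤ exp c * exp Λ := by
        rw [← exp_add]
        apply exp_le_exp.2
        unfold uu
        have := (sinb Λ l x hl).2
        linarith
      calc ww h r N c l x * exp (uu c l x) ≤ K * (exp c * exp Λ) :=
            mul_le_mul h2 h3 (exp_pos _).le hK0.le
        _ = Pt := by
            rw [hec]
            have := exp_pos Λ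
            field_simp
  rw [intervalIntegral.integral_const] at h1
  simpa using h1

theorem large_P (h r : ℝ → ℝ) (hh : Continuous h) (hr : Continuous r) (N : ℕ) (Λ k Pt : ℝ)
    (hk0 : 0 < k) (hPt0 : 0 < Pt)
    (hwlo : ∀ l ∈ Icc 0 Λ, ∀ c x, k ≤ ww h r N c l x)
    (l : ℝ) (hl : l ∈ Icc 0 Λ) :
    ∃ c, Pt ≤ ∫ x in (0 : ℝ)..1, ww h r N c l x * exp (uu c l x) := by
  refine ⟨log (Pt / (k * exp (-Λ))), ?_⟩
  set c := log (Pt / (k * exp (-Λ))) with hc
  have hec : exp c = Pt / (k * exp (-Λ)) := exp_log (by positivity)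
  have h1 : ∫ x in (0 : ℝ)..1, (Pt : ℝ)
      ≤ ∫ x in (0 : ℝ)..1, ww h r N c l x * exp (uu c l x) := by
    apply intervalIntegral.integral_mono_on (by norm_num)
    · exact intervalIntegrable_const
    · exact ((cont_x h r hh hr N c l).mul (cont_eu c l)).intervalIntegrable _ _
    · intro x _
      have h2 : k ≤ ww h r N c l x := hwlo l hl c x
      have h3 : exp c * exp (-Λ) ≤ exp (uu c l x) := by
        rw [← exp_add]
        apply exp_le_exp.2
        unfold uu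
        have := (sinb Λ l x hl).1
        linarith
      calc Pt = k * (exp c * exp (-Λ)) := by
            rw [hec]
            have := exp_pos (-Λ)
            field_simp
        _ ≤ ww h r N c l x * exp (uu c l x) :=
            mul_le_mul h2 h3 (by positivity) (Real.sqrt_nonneg _)
  rw [intervalIntegral.integral_const] at h1
  simpa using h1

theorem at_zero (h r : ℝ → ℝ) (hh : Continuous h) (hr : Continuous r) (N : ℕ) (W Pt Qt : ℝ)
    (hW : W = ∫ x in (0 : ℝ)..1, √(h x)) (hW0 : 0 < W)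
    (hP1 : 2 * W ≤ Pt) (hQ1 : 2 * W ≤ Qt)
    (hwup : ∀ l c x, ww h r N c l x ≤ √(h x))
    (c : ℝ) (hc : ∫ x in (0 : ℝ)..1, ww h r N c 0 x * exp (uu c 0 x) = Pt) :
    ∫ x in (0 : ℝ)..1, ww h r N c 0 x * exp (- uu c 0 x) ≤ Qt := by
  have hPt0 : 0 < Pt := by linarith
  have hww : ∀ x, ww h r N c 0 x = ww h r N 0 0 x := by
    intro x
    unfold ww tt
    simp
  have huu : ∀ x, uu c 0 x = c := by
    intro x; unfold uu; simp
  set V : ℝ := ∫ x in (0 : ℝ)..1, ww h r N 0 0 x with hV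
  have e1 : ∫ x in (0 : ℝ)..1, ww h r N c 0 x * exp (uu c 0 x) = V * exp c := by
    simp only [hww, huu]
    rw [intervalIntegral.integral_mul_const]
  have e2 : ∫ x in (0 : ℝ)..1, ww h r N c 0 x * exp (- uu c 0 x) = V * exp (-c) := by
    simp only [hww, huu]
    rw [intervalIntegral.integral_mul_const]
  have hV0 : 0 ≤ V := by
    apply intervalIntegral.integral_nonneg (by norm_num)
    intro x _
    exact Real.sqrt_nonneg _
  have hVW : V ≤ W := by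
    rw [hW]
    apply intervalIntegral.integral_mono_on (by norm_num)
    · exact (cont_x h r hh hr N 0 0).intervalIntegrable _ _
    · exact hh.sqrt.intervalIntegrable _ _
    · intro x _
      exact hwup 0 0 x
  have hc' : V * exp c = Pt := by rw [← e1]; exact hc
  rw [e2]
  have h1 : Pt * (V * exp (-c)) = V ^ 2 := by
    rw [← hc', exp_neg]
    have := exp_pos c
    field_simp
  have h2 : V ^ 2 ≤ W ^ 2 := pow_le_pow_left₀ hV0 hVW 2
  have h3 : W ^ 2 ≤ Pt * Qt := by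
    have h4 : (2 * W) * (2 * W) ≤ Pt * Qt := mul_le_mul hP1 hQ1 (by positivity) hPt0.le
    nlinarith
  have h4 : Pt * (V * exp (-c)) ≤ Pt * Qt := by linarith
  exact le_of_mul_le_mul_left h4 hPt0

theorem at_end (h r : ℝ → ℝ) (hh : Continuous h) (hr : Continuous r) (N : ℕ) (Λ m k W Pt Qt : ℝ)
    (hk0 : 0 < k) (hk2 : k ^ 2 = m / 2) (hm0 : 0 < m) (hΛ0 : 0 ≤ Λ) (hPt0 : 0 < Pt) (hQt0 : 0 < Qt)
    (hΛm : (2 * W + 1) ^ 2 ≤ m * Λ ^ 2 / 8) (hP2 : Pt ≤ 2 * W + 1) (hQ2 : Qt ≤ 2 * W + 1)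
    (hwlo : ∀ l ∈ Icc 0 Λ, ∀ c x, k ≤ ww h r N c l x)
    (c : ℝ) (hc : ∫ x in (0 : ℝ)..1, ww h r N c Λ x * exp (uu c Λ x) = Pt) :
    Qt ≤ ∫ x in (0 : ℝ)..1, ww h r N c Λ x * exp (- uu c Λ x) := by
  have hΛm' : Λ ∈ Icc 0 Λ := ⟨hΛ0, le_rfl⟩
  set I : ℝ := ∫ x in (0 : ℝ)..1, exp (Λ * sin (2 * π * x)) with hI
  have hI1 : 1 + Λ ^ 2 / 8 ≤ I := exp_int_ge Λ
  have cE : Continuous fun x : ℝ => exp (Λ * sin (2 * π * x)) := by fun_prop
  have cE' : Continuous fun x : ℝ => exp (-(Λ * sin (2 * π * x))) := by fun_prop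
  have e1 : k * exp c * I ≤ ∫ x in (0 : ℝ)..1, ww h r N c Λ x * exp (uu c Λ x) := by
    rw [hI, ← intervalIntegral.integral_const_mul]
    apply intervalIntegral.integral_mono_on (by norm_num)
    · exact (cE.const_mul _).intervalIntegrable _ _
    · exact ((cont_x h r hh hr N c Λ).mul (cont_eu c Λ)).intervalIntegrable _ _
    · intro x _
      have h2 : k ≤ ww h r N c Λ x := hwlo Λ hΛm' c x
      have h3 : exp (uu c Λ x) = exp c * exp (Λ * sin (2 * π * x)) := by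
        rw [← exp_add]; rfl
      rw [h3, mul_assoc]
      exact mul_le_mul_of_nonneg_right h2 (by positivity)
  have e2 : k * exp (-c) * I ≤ ∫ x in (0 : ℝ)..1, ww h r N c Λ x * exp (- uu c Λ x) := by
    rw [hI, ← exp_int_symm, ← intervalIntegral.integral_const_mul]
    apply intervalIntegral.integral_mono_on (by norm_num)
    · exact (cE'.const_mul _).intervalIntegrable _ _
    · exact ((cont_x h r hh hr N c Λ).mul (cont_eun c Λ)).intervalIntegrable _ _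
    · intro x _
      have h2 : k ≤ ww h r N c Λ x := hwlo Λ hΛm' c x
      have h3 : exp (- uu c Λ x) = exp (-c) * exp (-(Λ * sin (2 * π * x))) := by
        rw [← exp_add]
        unfold uu
        congr 1
        ring
      rw [h3, mul_assoc]
      exact mul_le_mul_of_nonneg_right h2 (by positivity)
  rw [hc] at e1
  refine le_trans ?_ e2
  have h1 : (k * exp c * I) * (k * exp (-c) * I) = k ^ 2 * I ^ 2 := by
    rw [exp_neg]
    have := exp_pos c
    field_simp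
  have hI0 : 0 < I := by nlinarith [sq_nonneg Λ]
  have h2 : (1 + Λ ^ 2 / 8) ^ 2 ≤ I ^ 2 := pow_le_pow_left₀ (by positivity) hI1 2
  have h3 : (2 * W + 1) ^ 2 ≤ k ^ 2 * I ^ 2 := by
    rw [hk2]
    have h4 : m / 2 * (1 + Λ ^ 2 / 8) ^ 2 ≤ m / 2 * I ^ 2 :=
      mul_le_mul_of_nonneg_left h2 (by linarith)
    have h5 : m * Λ ^ 2 / 8 ≤ m / 2 * (1 + Λ ^ 2 / 8) ^ 2 := by
      have : m / 2 * (1 + Λ ^ 2 / 8) ^ 2 - m * Λ ^ 2 / 8
          = m / 2 * (1 + (Λ ^ 2 / 8) ^ 2) := by ring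
      have h6 : 0 ≤ m / 2 * (1 + (Λ ^ 2 / 8) ^ 2) := by positivity
      linarith
    linarith
  have h4 : Pt * Qt ≤ (2 * W + 1) ^ 2 := by
    have : Pt * Qt ≤ (2 * W + 1) * (2 * W + 1) :=
      mul_le_mul hP2 hQ2 hQt0.le (by linarith)
    nlinarith
  have hkI : 0 ≤ k * exp (-c) * I := by positivity
  have h5 : (k * exp c * I) * (k * exp (-c) * I) ≤ Pt * (k * exp (-c) * I) :=
    mul_le_mul_of_nonneg_right e1 hkI
  have h6 : Pt * Qt ≤ Pt * (k * exp (-c) * I) := by linarith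
  exact le_of_mul_le_mul_left h6 hPt0

theorem lattice (N : ℕ) (hN : (1 : ℝ) ≤ N) (α W : ℝ) : ∃ p q : ℤ,
    2 * W ≤ α - p / N ∧ α - p / N ≤ 2 * W + 1 ∧ 2 * W ≤ q / N - α ∧ q / N - α ≤ 2 * W + 1 := by
  have hN0 : (0 : ℝ) < N := by linarith
  refine ⟨⌊(N : ℝ) * (α - 2 * W)⌋, ⌈(N : ℝ) * (α + 2 * W)⌉, ?_, ?_, ?_, ?_⟩
  · have h1 := Int.floor_le ((N : ℝ) * (α - 2 * W))
    have h2 : (⌊(N : ℝ) * (α - 2 * W)⌋ : ℝ) / N ≤ α - 2 * W := by
      rw [div_le_iff₀ hN0]; linarith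
    linarith
  · have h1 := Int.lt_floor_add_one ((N : ℝ) * (α - 2 * W))
    have h2 : α - 2 * W - 1 ≤ (⌊(N : ℝ) * (α - 2 * W)⌋ : ℝ) / N := by
      rw [le_div_iff₀ hN0]
      linarith
    linarith
  · have h1 := Int.le_ceil ((N : ℝ) * (α + 2 * W))
    have h2 : α + 2 * W ≤ (⌈(N : ℝ) * (α + 2 * W)⌉ : ℝ) / N := by
      rw [le_div_iff₀ hN0]; linarith
    linarith
  · have h1 := Int.ceil_lt_add_one ((N : ℝ) * (α + 2 * W))
    have h2 : (⌈(N : ℝ) * (α + 2 * W)⌉ : ℝ) / N ≤ α + 2 * W + 1 := by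
      rw [div_le_iff₀ hN0]
      linarith
    linarith

theorem choose_N (ρ Λ m : ℝ) (hρ : 0 ≤ ρ) (hm0 : 0 < m) :
    ∃ N : ℕ, 1 ≤ N ∧ (ρ + 2 * Λ ^ 2) / (N : ℝ) ^ 2 ≤ m / 2 := by
  refine ⟨⌈2 * (ρ + 2 * Λ ^ 2) / m⌉₊ + 1, by omega, ?_⟩
  set N : ℕ := ⌈2 * (ρ + 2 * Λ ^ 2) / m⌉₊ + 1 with hNdef
  have hN1 : 1 ≤ N := by omega
  have hNr : (1 : ℝ) ≤ N := by exact_mod_cast hN1
  have hN0 : (0 : ℝ) < N := by linarith
  have h1 : 2 * (ρ + 2 * Λ ^ 2) / m ≤ N := by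
    have := Nat.le_ceil (2 * (ρ + 2 * Λ ^ 2) / m)
    have h2 : (N : ℝ) = (⌈2 * (ρ + 2 * Λ ^ 2) / m⌉₊ : ℝ) + 1 := by
      rw [hNdef]; push_cast; ring
    linarith
  rw [div_le_iff₀ hm0] at h1
  rw [div_le_iff₀ (by positivity)]
  have h3 : (N : ℝ) * m ≤ (N : ℝ) ^ 2 * m := by
    apply mul_le_mul_of_nonneg_right _ hm0.le
    nlinarith
  linarith

theorem choose_Λ (W m : ℝ) (hm0 : 0 < m) : ∃ Λ : ℝ, 0 ≤ Λ ∧ (2 * W + 1) ^ 2 ≤ m * Λ ^ 2 / 8 := by
  refine ⟨1 + 8 * (2 * W + 1) ^ 2 / m, by positivity, ?_⟩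
  set Λ : ℝ := 1 + 8 * (2 * W + 1) ^ 2 / m with hΛdef
  have hΛ1 : 1 ≤ Λ := by
    have : 0 ≤ 8 * (2 * W + 1) ^ 2 / m := by positivity
    linarith
  have h1 : 8 * (2 * W + 1) ^ 2 / m ≤ Λ := by linarith
  rw [div_le_iff₀ hm0] at h1
  have h2 : Λ * m ≤ Λ ^ 2 * m := by
    apply mul_le_mul_of_nonneg_right _ hm0.le
    nlinarith
  linarith

theorem low (h r : ℝ → ℝ) (N : ℕ) (Λ m ρ : ℝ)
    (hN2 : (0 : ℝ) < (N : ℝ) ^ 2)
    (hm : ∀ x, m ≤ h x) (hρ : ∀ x, r x ≤ ρ) (hNb : (ρ + 2 * Λ ^ 2) / (N : ℝ) ^ 2 ≤ m / 2)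
    (l : ℝ) (hl : l ∈ Icc 0 Λ) (c x : ℝ) :
    m / 2 ≤ h x - (r x + tt c l x) / (N : ℝ) ^ 2 := by
  have h1 : tt c l x ≤ 2 * Λ ^ 2 := by
    have := tt_le c l x
    have h2 : l ^ 2 ≤ Λ ^ 2 := by
      apply pow_le_pow_left₀ hl.1 hl.2
    nlinarith [sq_nonneg Λ]
  have h3 : (r x + tt c l x) / (N : ℝ) ^ 2 ≤ (ρ + 2 * Λ ^ 2) / (N : ℝ) ^ 2 := by
    apply div_le_div_of_nonneg_right _ hN2.le
    have := hρ x
    linarith
  have := hm x
  linarith

theorem up (h r : ℝ → ℝ) (N : ℕ) (hN2 : (0 : ℝ) < (N : ℝ) ^ 2) (hr0 : ∀ x, 0 ≤ r x)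
    (l c x : ℝ) : ww h r N c l x ≤ √(h x) := by
  apply Real.sqrt_le_sqrt
  have : 0 ≤ (r x + tt c l x) / (N : ℝ) ^ 2 :=
    div_nonneg (add_nonneg (hr0 x) (tt_nonneg c l x)) hN2.le
  linarith

theorem thm : StmtIVT := by
  intro h r α hh hr hpos hr0 hhp hrp
  obtain ⟨⟨xm, hm⟩, ⟨xM, hM⟩⟩ := per_bound h hh hhp
  obtain ⟨-, ⟨xρ, hρ⟩⟩ := per_bound r hr hrp
  have hm0 : 0 < h xm := hpos xm
  have hW0 : 0 < ∫ x in (0 : ℝ)..1, √(h x) := by
    apply intervalIntegral.intervalIntegral_pos_of_pos_on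
    · exact (hh.sqrt).intervalIntegrable _ _
    · intro x _
      exact Real.sqrt_pos.2 (hpos x)
    · norm_num
  obtain ⟨W, hW⟩ : ∃ W : ℝ, W = ∫ x in (0 : ℝ)..1, √(h x) := ⟨_, rfl⟩
  rw [← hW] at hW0
  obtain ⟨Λ, hΛ0, hΛm⟩ := choose_Λ W (h xm) hm0
  obtain ⟨N, hN1, hNb⟩ := choose_N (r xρ) Λ (h xm) (hr0 xρ) hm0
  have hNr : (1 : ℝ) ≤ N := by exact_mod_cast hN1
  have hN0 : (0 : ℝ) < N := by linarith
  have hN2 : (0 : ℝ) < (N : ℝ) ^ 2 := by positivity
  obtain ⟨p, q, hP1, hP2, hQ1, hQ2⟩ := lattice N hNr α W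
  have hPt0 : 0 < α - p / N := by linarith
  have hQt0 : 0 < q / N - α := by linarith
  have hA := low h r N Λ (h xm) (r xρ) hN2 hm hρ hNb
  have hwlo : ∀ l ∈ Icc 0 Λ, ∀ c x, √(h xm / 2) ≤ ww h r N c l x := fun l hl c x =>
    Real.sqrt_le_sqrt (hA l hl c x)
  have hwup := up h r N hN2 hr0
  have hk0 : 0 < √(h xm / 2) := Real.sqrt_pos.2 (by linarith)
  have hk2 : √(h xm / 2) ^ 2 = h xm / 2 := Real.sq_sqrt (by linarith)
  have hK0 : 0 < √(h xM) := Real.sqrt_pos.2 (hpos xM)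
  obtain ⟨c, l, hl, hPc, hQc⟩ := nested
    (fun c l => ∫ x in (0 : ℝ)..1, ww h r N c l x * exp (uu c l x))
    (fun c l => ∫ x in (0 : ℝ)..1, ww h r N c l x * exp (- uu c l x))
    (cont_P h r hh hr N) (cont_Q h r hh hr N) Λ hΛ0 (α - p / N) (q / N - α)
    (mono_P h r hh hr N Λ (h xm) (r xρ) hN2 hm0 hm hρ hNb)
    (small_P h r hh hr N Λ (√(h xM)) _ hK0 hPt0
      (fun l c x => (hwup l c x).trans (Real.sqrt_le_sqrt (hM x))))
    (large_P h r hh hr N Λ _ _ hk0 hPt0 hwlo)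
    (at_zero h r hh hr N W _ _ hW hW0 hP1 hQ1 hwup)
    (at_end h r hh hr N Λ (h xm) _ W _ _ hk0 hk2 hm0 hΛ0 hPt0 hQt0 hΛm hP2 hQ2 hwlo)
  refine ⟨N, c, l, p, q, hN1, ?_, ?_, ?_⟩
  · intro x
    have := hA l hl c x
    linarith
  · have hPc' : ∫ x in (0 : ℝ)..1, ww h r N c l x * exp (uu c l x) = α - p / N := hPc
    rw [hPc']
    field_simp
    ring
  · have hQc' : ∫ x in (0 : ℝ)..1, ww h r N c l x * exp (- uu c l x) = q / N - α := hQc
    rw [hQc']
    field_simp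
    ring

end Vale.P205.IVT
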