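import Vale.Agent.P205.GEO

namespace Vale.P205.KLE
open Real MeasureTheory

theorem inv {m : ℝ → ℝ} (hm : ContDiff ℝ (⊤ : ℕ∞) m) (hpos : ∀ t, 0 < m t)
    (hev : ∀ t, m (-t) = m t) (hper : ∀ t, m (t + 2 * π) = m t)
    (hi : ∫ t in (0 : ℝ)..(2 * π), m t = 1) :
    ∃ T : ℝ → ℝ, ContDiff ℝ (⊤ : ℕ∞) T ∧ (∀ x, HasDerivAt T (m (T x))⁻¹ x) ∧
      (∀ x, T (-x) = - T x) ∧ (∀ x, T (x + 1) = T x + 2 * π) := by
  set X : ℝ → ℝ := fun u => ∫ t in (0 : ℝ)..u, m t with hX
  have hd : ∀ x, HasDerivAt X (m x) x := by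
    intro x
    exact intervalIntegral.integral_hasDerivAt_right (hm.continuous.intervalIntegrable _ _)
      (hm.continuous.stronglyMeasurableAtFilter _ _) hm.continuous.continuousAt
  have hC : ContDiff ℝ (⊤ : ℕ∞) X := by
    rw [contDiff_infty_iff_deriv]
    refine ⟨fun x => (hd x).differentiableAt, ?_⟩
    have : deriv X = m := by
      funext x
      exact (hd x).deriv
    rw [this]
    exact hm
  have hmono : StrictMono X := strictMono_of_hasDerivAt_pos hd hpos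
  have hper' : ∀ x, X (x + 2 * π) = X x + 1 := by
    intro x
    have h1 := intervalIntegral.integral_add_adjacent_intervals
      (hm.continuous.intervalIntegrable (μ := MeasureTheory.volume) 0 x)
      (hm.continuous.intervalIntegrable (μ := MeasureTheory.volume) x (x + 2 * π))
    have h2 : Function.Periodic m (2 * π) := hper
    have h3 := h2.intervalIntegral_add_eq x 0
    rw [zero_add] at h3
    show (∫ t in (0 : ℝ)..(x + 2 * π), m t) = (∫ t in (0 : ℝ)..x, m t) + 1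
    rw [← h1, h3, hi]
  have hodd : ∀ x, X (-x) = - X x := by
    intro x
    have h1 := intervalIntegral.integral_comp_neg (fun t => m t) (a := 0) (b := x)
    simp only [hev, neg_zero] at h1
    show (∫ t in (0 : ℝ)..(-x), m t) = - ∫ t in (0 : ℝ)..x, m t
    rw [h1, intervalIntegral.integral_symm]
  have hn : ∀ n : ℕ, X (2 * π * n) = n := by
    intro n
    induction n with
    | zero => simp [hX]
    | succ n ih =>
      have : 2 * π * ((n + 1 : ℕ) : ℝ) = 2 * π * n + 2 * π := by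
        push_cast
        ring
      rw [this, hper', ih]
      push_cast
      ring
  have hsurj : Function.Surjective X := by
    intro y
    obtain ⟨n, hn1⟩ := exists_nat_ge |y|
    have h1 : X (2 * π * n) = n := hn n
    have h2 : X (-(2 * π * n)) = -n := by rw [hodd, h1]
    exact mem_range_of_exists_le_of_exists_ge hC.continuous
      ⟨_, by rw [h2]; linarith [neg_abs_le y]⟩ ⟨_, by rw [h1]; linarith [le_abs_self y]⟩
  let H : ℝ ≃ₜ ℝ := (StrictMono.orderIsoOfSurjective X hmono hsurj).toHomeomorph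
  have hH : ∀ x, H x = X x := fun x => rfl
  have hXT : ∀ x, X (H.symm x) = x := fun x => H.apply_symm_apply x
  refine ⟨H.symm, ?_, ?_, ?_, ?_⟩
  · exact H.contDiff_symm_deriv (f' := m) (fun x => (hpos x).ne') hd hC
  · intro x
    exact HasDerivAt.of_local_left_inverse H.symm.continuous.continuousAt (hd _) (hpos _).ne'
      (Filter.Eventually.of_forall hXT)
  · intro x
    apply hmono.injective
    rw [hXT, hodd, hXT]
  · intro x
    apply hmono.injective
    rw [hXT, hper', hXT]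

/-- the speed -/
noncomputable def rad (N : ℕ) (l t : ℝ) : ℝ :=
  sin t ^ 2 / (2 * N : ℝ) ^ 2 + cos t ^ 2 / (2 * N + 1 : ℝ) ^ 2
    + 4 * π ^ 2 * l ^ 2 * (sin t ^ 2) ^ 2 * cos t ^ 2

theorem rad_pos {N : ℕ} (hN : 1 ≤ N) (l t : ℝ) : 0 < rad N l t := by
  have hNp : (0 : ℝ) < N := by exact_mod_cast hN
  have h1 := sin_sq_add_cos_sq t
  unfold rad
  have h3 : 0 ≤ 4 * π ^ 2 * l ^ 2 * (sin t ^ 2) ^ 2 * cos t ^ 2 := by positivity
  have h4 : 0 < sin t ^ 2 / (2 * N : ℝ) ^ 2 + cos t ^ 2 / (2 * N + 1 : ℝ) ^ 2 := by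
    by_cases hs : sin t = 0
    · rw [hs] at h1 ⊢
      have hc : cos t ^ 2 = 1 := by linarith
      rw [hc]
      positivity
    · positivity
  linarith

theorem lam (c : ℝ) (hc : 0 < c) : ∃ (N : ℕ) (l : ℝ), 1 ≤ N ∧
    ∫ t in (0 : ℝ)..(2 * π), √(rad N l t) = c := by
  obtain ⟨N, hN⟩ := exists_nat_ge (max 1 (π / c))
  have hN1 : 1 ≤ N := by
    have : (1 : ℝ) ≤ N := (le_max_left _ _).trans hN
    exact_mod_cast this
  have hNp : (0 : ℝ) < N := by exact_mod_cast hN1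
  have hN2 : π / c ≤ N := (le_max_right _ _).trans hN
  have hcont : Continuous (fun l : ℝ => ∫ t in (0 : ℝ)..(2 * π), √(rad N l t)) := by
    apply intervalIntegral.continuous_parametric_intervalIntegral_of_continuous'
    unfold rad Function.uncurry
    fun_prop
  have c1 : ∀ l : ℝ, Continuous (fun t : ℝ => √(rad N l t)) := by
    intro l
    unfold rad
    fun_prop
  have h0 : (∫ t in (0 : ℝ)..(2 * π), √(rad N 0 t)) ≤ c := by
    have h1 : (∫ t in (0 : ℝ)..(2 * π), √(rad N 0 t)) ≤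
        ∫ t in (0 : ℝ)..(2 * π), 1 / (2 * N : ℝ) := by
      apply intervalIntegral.integral_mono_on (by positivity)
        ((c1 0).intervalIntegrable _ _) (by simp)
      intro t _
      rw [sqrt_le_left (by positivity)]
      unfold rad
      have h2 : cos t ^ 2 / (2 * N + 1 : ℝ) ^ 2 ≤ cos t ^ 2 / (2 * N : ℝ) ^ 2 := by
        apply div_le_div_of_nonneg_left (sq_nonneg _) (by positivity)
        nlinarith
      have h3 : sin t ^ 2 / (2 * N : ℝ) ^ 2 + cos t ^ 2 / (2 * N : ℝ) ^ 2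
          = (1 / (2 * N : ℝ)) ^ 2 := by
        rw [← add_div, sin_sq_add_cos_sq]
        ring
      have h4 : 4 * π ^ 2 * (0 : ℝ) ^ 2 * (sin t ^ 2) ^ 2 * cos t ^ 2 = 0 := by ring
      linarith
    have h5 : (∫ t in (0 : ℝ)..(2 * π), 1 / (2 * N : ℝ)) = π / N := by
      rw [intervalIntegral.integral_const, smul_eq_mul]
      field_simp
      ring
    rw [h5] at h1
    have h6 : π / N ≤ c := by
      rw [div_le_iff₀ hNp]
      rw [div_le_iff₀ hc] at hN2
      linarith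
    linarith
  have h1 : c ≤ ∫ t in (0 : ℝ)..(2 * π), √(rad N c t) := by
    have h2 : (∫ t in (0 : ℝ)..(2 * π), 2 * π * c * (sin t ^ 2 * cos t ^ 2)) ≤
        ∫ t in (0 : ℝ)..(2 * π), √(rad N c t) := by
      apply intervalIntegral.integral_mono_on (by positivity)
        (Continuous.intervalIntegrable (by fun_prop) _ _) ((c1 c).intervalIntegrable _ _)
      intro t _
      apply le_sqrt_of_sq_le
      unfold rad
      have h3 : cos t ^ 2 ≤ 1 := by
        have := sin_sq_add_cos_sq t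
        nlinarith [sq_nonneg (sin t)]
      have h4 : (2 * π * c * (sin t ^ 2 * cos t ^ 2)) ^ 2
          = 4 * π ^ 2 * c ^ 2 * (sin t ^ 2) ^ 2 * cos t ^ 2 * cos t ^ 2 := by ring
      have h5 : 4 * π ^ 2 * c ^ 2 * (sin t ^ 2) ^ 2 * cos t ^ 2 * cos t ^ 2
          ≤ 4 * π ^ 2 * c ^ 2 * (sin t ^ 2) ^ 2 * cos t ^ 2 * 1 :=
        mul_le_mul_of_nonneg_left h3 (by positivity)
      have h6 : 0 ≤ sin t ^ 2 / (2 * N : ℝ) ^ 2 := by positivity
      have h7 : 0 ≤ cos t ^ 2 / (2 * N + 1 : ℝ) ^ 2 := by positivity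
      linarith
    rw [intervalIntegral.integral_const_mul, integral_sin_sq_mul_cos_sq] at h2
    have h8 : sin (4 * (2 * π)) = 0 := by
      have : 4 * (2 * π) = (8 : ℕ) * π := by
        push_cast
        ring
      rw [this, sin_nat_mul_pi]
    rw [h8] at h2
    simp only [mul_zero, sin_zero, sub_zero, zero_div] at h2
    have h9 : c ≤ 2 * π * c * (2 * π / 8) := by
      have h10 : 2 * π * c * (2 * π / 8) = c * (π ^ 2 / 2) := by ring
      have h11 : (1 : ℝ) ≤ π ^ 2 / 2 := by nlinarith [pi_gt_three]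
      rw [h10]
      nlinarith
    linarith
  obtain ⟨l, _, hl⟩ := intermediate_value_Icc hc.le hcont.continuousOn ⟨h0, h1⟩
  exact ⟨N, l, hN1, hl⟩

theorem e3g (ρ s c q l n1 n2 : ℝ) (st : s ^ 2 + c ^ 2 = 1) :
    (ρ / n1 * (-s * q)) ^ 2 + (ρ * c * (2 * π * l * s ^ 3 * q)) ^ 2
          + ((ρ / n2 * (c * q)) ^ 2 + (ρ * s * (-(2 * π * l * c ^ 2 * s * q))) ^ 2) =
      q ^ 2 * (ρ ^ 2 * (s ^ 2 / n1 ^ 2 + c ^ 2 / n2 ^ 2
        + 4 * π ^ 2 * l ^ 2 * (s ^ 2) ^ 2 * c ^ 2)) := by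
  linear_combination (4 * π ^ 2 * l ^ 2 * ρ ^ 2 * q ^ 2 * s ^ 4 * c ^ 2) * st

theorem blk1 (A' H a b : ℝ) (h : a ^ 2 + b ^ 2 = 1) :
    (A' * b - H * a) * (A' * b - H * a) + (A' * a + H * b) * (A' * a + H * b)
      = A' ^ 2 + H ^ 2 := by
  have : (A' * b - H * a) * (A' * b - H * a) + (A' * a + H * b) * (A' * a + H * b)
      = (A' ^ 2 + H ^ 2) * (a ^ 2 + b ^ 2) := by ring
  rw [this, h, mul_one]

theorem blk2 (A' H K a b : ℝ) (h : a ^ 2 + b ^ 2 = 1) :
    -(K * a) * (A' * b - H * a) + K * b * (A' * a + H * b) = K * H := by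
  have : -(K * a) * (A' * b - H * a) + K * b * (A' * a + H * b)
      = K * H * (a ^ 2 + b ^ 2) := by ring
  rw [this, h, mul_one]

theorem klein (E G : ℝ) (hE : 0 < E) (hG : 0 < G) :
    ∃ f : ℝ × ℝ → EuclideanSpace ℝ (Fin 4), ContDiff ℝ (⊤ : ℕ∞) f ∧
      (∀ x y, f (x + 1, y) = f (x, y)) ∧ (∀ x y, f (-x, y + 1 / 2) = f (x, y)) ∧
      ∀ z : ℝ × ℝ, inner ℝ (fderiv ℝ f z (1, 0)) (fderiv ℝ f z (1, 0)) = E ∧
        inner ℝ (fderiv ℝ f z (1, 0)) (fderiv ℝ f z (0, 1)) = 0 ∧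
        inner ℝ (fderiv ℝ f z (0, 1)) (fderiv ℝ f z (0, 1)) = G := by
  set e : ℝ := √E with he
  have he0 : 0 < e := sqrt_pos.2 hE
  have he2 : e ^ 2 = E := sq_sqrt hE.le
  set ρ : ℝ := √G / (2 * π) with hρ
  have hρ0 : 0 < ρ := by
    have := sqrt_pos.2 hG
    positivity
  have hρ2 : 4 * π ^ 2 * ρ ^ 2 = G := by
    rw [hρ, div_pow, sq_sqrt hG.le]
    field_simp
    ring
  obtain ⟨N, l, hN, hl⟩ := lam (e / ρ) (by positivity)
  have hNp : (0 : ℝ) < N := by exact_mod_cast hN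
  set m : ℝ → ℝ := fun t => ρ / e * √(rad N l t) with hm
  have radC : ContDiff ℝ (⊤ : ℕ∞) (rad N l) := by
    unfold rad
    fun_prop
  have mC : ContDiff ℝ (⊤ : ℕ∞) m :=
    contDiff_const.mul (radC.sqrt (fun t => (rad_pos hN l t).ne'))
  have mpos : ∀ t, 0 < m t := by
    intro t
    have := sqrt_pos.2 (rad_pos hN l t)
    simp only [hm]
    positivity
  obtain ⟨T, TC, Td, To, Tp⟩ := inv mC mpos
    (by
      intro t
      simp only [hm, rad, sin_neg, cos_neg, neg_sq])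
    (by
      intro t
      simp only [hm, rad, sin_add_two_pi, cos_add_two_pi])
    (by
      simp only [hm]
      rw [intervalIntegral.integral_const_mul, hl]
      field_simp)
  have dT : ∀ x, HasDerivAt T ((m (T x))⁻¹) x := Td
  set A : ℝ → ℝ := fun x => ρ / (2 * N) * cos (T x) with hA
  set B : ℝ → ℝ := fun x => ρ / (2 * N + 1) * sin (T x) with hB
  set g : ℝ → ℝ := fun x => 2 * N * l * (cos (T x) ^ 3 / 3 - cos (T x)) with hg
  set k : ℝ → ℝ := fun x => (2 * N + 1) * l * (cos (T x) ^ 3 / 3) with hk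
  have dA : ∀ x, HasDerivAt A (ρ / (2 * N) * (- sin (T x) * (m (T x))⁻¹)) x := fun x =>
    ((dT x).cos).const_mul _
  have dB : ∀ x, HasDerivAt B (ρ / (2 * N + 1) * (cos (T x) * (m (T x))⁻¹)) x := fun x =>
    ((dT x).sin).const_mul _
  have dg : ∀ x, HasDerivAt g (2 * N * l * (sin (T x) ^ 3 * (m (T x))⁻¹)) x := by
    intro x
    have h := (((((dT x).cos).pow 3).div_const 3).sub ((dT x).cos)).const_mul (2 * N * l)
    refine h.congr_deriv ?_
    have h1 := sin_sq_add_cos_sq (T x)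
    have h2 : sin (T x) ^ 3 = sin (T x) * (1 - cos (T x) ^ 2) := by
      rw [← h1]
      ring
    rw [h2]
    push_cast
    ring
  have dk : ∀ x, HasDerivAt k (-((2 * N + 1) * l * (cos (T x) ^ 2 * sin (T x) * (m (T x))⁻¹))) x := by
    intro x
    have h := ((((dT x).cos).pow 3).div_const 3).const_mul ((2 * N + 1) * l)
    refine h.congr_deriv ?_
    push_cast
    ring
  have AC : ContDiff ℝ (⊤ : ℕ∞) A := contDiff_const.mul TC.cos
  have BC : ContDiff ℝ (⊤ : ℕ∞) B := contDiff_const.mul TC.sin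
  have gC : ContDiff ℝ (⊤ : ℕ∞) g :=
    contDiff_const.mul (((TC.cos.pow 3).div_const 3).sub TC.cos)
  have kC : ContDiff ℝ (⊤ : ℕ∞) k := contDiff_const.mul ((TC.cos.pow 3).div_const 3)
  have cast2 : ((2 * N : ℕ) : ℝ) = 2 * N := by push_cast; ring
  have cast3 : ((2 * N + 1 : ℕ) : ℝ) = 2 * N + 1 := by push_cast; ring
  let f : ℝ × ℝ → EuclideanSpace ℝ (Fin 4) := fun z => WithLp.toLp 2
    ![A z.1 * cos (2 * π * ((2 * N : ℕ) * z.2 + g z.1)),
      A z.1 * sin (2 * π * ((2 * N : ℕ) * z.2 + g z.1)),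
      B z.1 * cos (2 * π * ((2 * N + 1 : ℕ) * z.2 + k z.1)),
      B z.1 * sin (2 * π * ((2 * N + 1 : ℕ) * z.2 + k z.1))]
  have arg1 : ContDiff ℝ (⊤ : ℕ∞) (fun z : ℝ × ℝ => 2 * π * ((2 * N : ℕ) * z.2 + g z.1)) :=
    contDiff_const.mul ((contDiff_const.mul contDiff_snd).add (gC.comp contDiff_fst))
  have arg2 : ContDiff ℝ (⊤ : ℕ∞) (fun z : ℝ × ℝ => 2 * π * ((2 * N + 1 : ℕ) * z.2 + k z.1)) :=
    contDiff_const.mul ((contDiff_const.mul contDiff_snd).add (kC.comp contDiff_fst))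
  have amp1 : ContDiff ℝ (⊤ : ℕ∞) (fun z : ℝ × ℝ => A z.1) := AC.comp contDiff_fst
  have amp2 : ContDiff ℝ (⊤ : ℕ∞) (fun z : ℝ × ℝ => B z.1) := BC.comp contDiff_fst
  have hf : ContDiff ℝ (⊤ : ℕ∞) f := by
    rw [contDiff_euclidean]
    intro i
    fin_cases i
    · exact amp1.mul arg1.cos
    · exact amp1.mul arg1.sin
    · exact amp2.mul arg2.cos
    · exact amp2.mul arg2.sin
  refine ⟨f, hf, ?_, ?_, ?_⟩
  · intro x y
    show (WithLp.toLp 2 _ : EuclideanSpace ℝ (Fin 4)) = WithLp.toLp 2 _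
    simp only [hA, hB, hg, hk, Tp, cos_add_two_pi, sin_add_two_pi]
  · intro x y
    have eA : A (-x) = A x := by simp only [hA, To, cos_neg]
    have eB : B (-x) = - B x := by
      simp only [hB, To, sin_neg]
      ring
    have eg : g (-x) = g x := by simp only [hg, To, cos_neg]
    have ek : k (-x) = k x := by simp only [hk, To, cos_neg]
    have e1 : 2 * π * (((2 * N : ℕ) : ℝ) * (y + 1 / 2) + g x)
        = 2 * π * ((2 * N : ℕ) * y + g x) + N * (2 * π) := by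
      rw [cast2]
      ring
    have e2 : 2 * π * (((2 * N + 1 : ℕ) : ℝ) * (y + 1 / 2) + k x)
        = 2 * π * ((2 * N + 1 : ℕ) * y + k x) + N * (2 * π) + π := by
      rw [cast3]
      ring
    show (WithLp.toLp 2 _ : EuclideanSpace ℝ (Fin 4)) = WithLp.toLp 2 _
    simp only [eA, eB, eg, ek, e1, e2, cos_add_nat_mul_two_pi, sin_add_nat_mul_two_pi,
      cos_add_pi, sin_add_pi, neg_mul_neg]
  · intro z
    have hfd : DifferentiableAt ℝ f z := (hf.differentiable (by simp)) z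
    obtain ⟨L0, h0, h0x, h0y⟩ := GEO.cosd (2 * N) z (dA z.1) (dg z.1)
    obtain ⟨L1, h1, h1x, h1y⟩ := GEO.sind (2 * N) z (dA z.1) (dg z.1)
    obtain ⟨L2, h2, h2x, h2y⟩ := GEO.cosd (2 * N + 1) z (dB z.1) (dk z.1)
    obtain ⟨L3, h3, h3x, h3y⟩ := GEO.sind (2 * N + 1) z (dB z.1) (dk z.1)
    have c0 := fun v => GEO.coord hfd 0 (L := L0) h0 v
    have c1 := fun v => GEO.coord hfd 1 (L := L1) h1 v
    have c2 := fun v => GEO.coord hfd 2 (L := L2) h2 v
    have c3 := fun v => GEO.coord hfd 3 (L := L3) h3 v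
    have s1 := sin_sq_add_cos_sq (2 * π * ((2 * N : ℕ) * z.2 + g z.1))
    have s2 := sin_sq_add_cos_sq (2 * π * ((2 * N + 1 : ℕ) * z.2 + k z.1))
    have st := sin_sq_add_cos_sq (T z.1)
    simp only [PiLp.inner_apply, Fin.sum_univ_four, c0, c1, c2, c3, h0x, h0y, h1x, h1y, h2x, h2y,
      h3x, h3y, RCLike.inner_apply, conj_trivial]
    rw [cast2] at s1 ⊢
    rw [cast3] at s2 ⊢
    generalize 2 * π * (2 * (N : ℝ) * z.2 + g z.1) = u1 at *
    generalize 2 * π * ((2 * (N : ℝ) + 1) * z.2 + k z.1) = u2 at *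
    have hmT : (m (T z.1)) ^ 2 * E = ρ ^ 2 * rad N l (T z.1) := by
      simp only [hm]
      rw [mul_pow, sq_sqrt (rad_pos hN l _).le, div_pow, he2]
      field_simp
    have hmn : m (T z.1) ≠ 0 := (mpos _).ne'
    simp only [hA, hB]
    unfold rad at hmT
    generalize m (T z.1) = M at *
    generalize sin (T z.1) = s at *
    generalize cos (T z.1) = c at *
    generalize sin u1 = a1 at *
    generalize cos u1 = b1 at *
    generalize sin u2 = a2 at *
    generalize cos u2 = b2 at *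
    have hN1 : (2 * (N : ℝ) + 1) ≠ 0 := by positivity
    have k1 : ρ / (2 * N) * c * (2 * π * (2 * N * l * (s ^ 3 * M⁻¹)))
        = ρ * c * (2 * π * l * s ^ 3 * M⁻¹) := by
      field_simp
    have k2 : ρ / (2 * N + 1) * s * (2 * π * -((2 * N + 1) * l * (c ^ 2 * s * M⁻¹)))
        = ρ * s * (-(2 * π * l * c ^ 2 * s * M⁻¹)) := by
      field_simp
    have k3 : ρ / (2 * N) * c * (2 * π * (2 * N)) = 2 * π * ρ * c := by
      field_simp
    have k4 : ρ / (2 * N + 1) * s * (2 * π * (2 * N + 1)) = 2 * π * ρ * s := by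
      field_simp
    rw [k1, k2, k3, k4]
    have hEq : E = M⁻¹ ^ 2 * (ρ ^ 2 * (s ^ 2 / (2 * N : ℝ) ^ 2 + c ^ 2 / (2 * N + 1 : ℝ) ^ 2
        + 4 * π ^ 2 * l ^ 2 * (s ^ 2) ^ 2 * c ^ 2)) := by
      rw [← hmT]
      field_simp
    generalize M⁻¹ = q at *
    refine ⟨?_, ?_, ?_⟩
    · have e1 := blk1 (ρ / (2 * N) * (-s * q)) (ρ * c * (2 * π * l * s ^ 3 * q)) a1 b1 s1
      have e2 := blk1 (ρ / (2 * N + 1) * (c * q)) (ρ * s * (-(2 * π * l * c ^ 2 * s * q))) a2 b2 s2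
      have e3 : (ρ / (2 * N) * (-s * q)) ^ 2 + (ρ * c * (2 * π * l * s ^ 3 * q)) ^ 2
          + ((ρ / (2 * N + 1) * (c * q)) ^ 2 + (ρ * s * (-(2 * π * l * c ^ 2 * s * q))) ^ 2) = E := by
        rw [hEq]
        exact e3g _ _ _ _ _ _ _ st
      rw [← e3, ← e1, ← e2]
      ring
    · have e1 := blk2 (ρ / (2 * N) * (-s * q)) (ρ * c * (2 * π * l * s ^ 3 * q))
        (2 * π * ρ * c) a1 b1 s1
      have e2 := blk2 (ρ / (2 * N + 1) * (c * q)) (ρ * s * (-(2 * π * l * c ^ 2 * s * q)))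
        (2 * π * ρ * s) a2 b2 s2
      have e3 : 2 * π * ρ * c * (ρ * c * (2 * π * l * s ^ 3 * q))
          + 2 * π * ρ * s * (ρ * s * (-(2 * π * l * c ^ 2 * s * q))) = 0 := by ring
      rw [← e3, ← e1, ← e2]
      ring
    · have e1 : -(2 * π * ρ * c * a1) * -(2 * π * ρ * c * a1) + 2 * π * ρ * c * b1 * (2 * π * ρ * c * b1)
          + -(2 * π * ρ * s * a2) * -(2 * π * ρ * s * a2) + 2 * π * ρ * s * b2 * (2 * π * ρ * s * b2)
          = 4 * π ^ 2 * ρ ^ 2 := GEO.alg3 _ _ _ _ _ _ _ s1 s2 st |>.trans (by ring)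
      rw [hρ2] at e1
      exact e1

end Vale.P205.KLE
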