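import Vale.Agent.P205.FIN
import Vale.Agent.P205.IVT

namespace Vale.P205.RAT
open Real

/-- bilinear form of the main theorem -/
theorem torus (E F G : ℝ → ℝ) (hE : ContDiff ℝ (⊤ : ℕ∞) E) (hF : ContDiff ℝ (⊤ : ℕ∞) F)
    (hG : ContDiff ℝ (⊤ : ℕ∞) G) (pE : ∀ x, E (x + 1) = E x) (pF : ∀ x, F (x + 1) = F x)
    (pG : ∀ x, G (x + 1) = G x) (hpos : ∀ x, 0 < G x) (hdet : ∀ x, 0 < E x * G x - F x ^ 2) :
    ∃ f : ℝ × ℝ → EuclideanSpace ℝ (Fin 4), ContDiff ℝ (⊤ : ℕ∞) f ∧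
      (∀ x y, f (x + 1, y) = f (x, y)) ∧ (∀ x y, f (x, y + 1) = f (x, y)) ∧
      ∀ z v w : ℝ × ℝ, inner ℝ (fderiv ℝ f z v) (fderiv ℝ f z w) =
        E z.1 * (v.1 * w.1) + F z.1 * (v.1 * w.2 + v.2 * w.1) + G z.1 * (v.2 * w.2) := by
  obtain ⟨f, hf, p1, p2, h⟩ := Vale.P205.FIN.main Vale.P205.IVT.thm E F G hE hF hG pE pF pG
    hpos hdet
  refine ⟨f, hf, p1, p2, ?_⟩
  intro z v w
  obtain ⟨h11, h12, h22⟩ := h z
  have hv : ∀ u : ℝ × ℝ, fderiv ℝ f z u
      = u.1 • fderiv ℝ f z (1, 0) + u.2 • fderiv ℝ f z (0, 1) := by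
    intro u
    rw [← map_smul, ← map_smul, ← map_add]
    congr 1
    ext <;> simp
  have h21 : inner ℝ (fderiv ℝ f z (0, 1)) (fderiv ℝ f z (1, 0)) = F z.1 := by
    rw [real_inner_comm]
    exact h12
  rw [hv v, hv w]
  simp only [inner_add_left, inner_add_right, inner_smul_left, inner_smul_right, conj_trivial,
    h11, h12, h21, h22]
  ring

theorem per_int {X : Type*} (k : ℝ × ℝ → X) (h1 : ∀ x y, k (x + 1, y) = k (x, y))
    (h2 : ∀ x y, k (x, y + 1) = k (x, y)) (m n : ℤ) (x y : ℝ) :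
    k (x + m, y + n) = k (x, y) := by
  have a1 : ∀ y, Function.Periodic (fun x => k (x, y)) 1 := fun y x => h1 x y
  have a2 : ∀ x, Function.Periodic (fun y => k (x, y)) 1 := fun x y => h2 x y
  have b1 := (a1 (y + n)).int_mul m x
  have b2 := (a2 x).int_mul n y
  simp only [mul_one] at b1 b2
  rw [b1, b2]

/-- conclusion for a metric `a dx² + 2 b dx dy + c dy²` -/
def Concl (a b c : ℝ × ℝ → ℝ) : Prop :=
  ∃ f : ℝ × ℝ → EuclideanSpace ℝ (Fin 4), ContDiff ℝ (⊤ : ℕ∞) f ∧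
      (∀ x y, f (x + 1, y) = f (x, y)) ∧ (∀ x y, f (x, y + 1) = f (x, y)) ∧
      ∀ z v w : ℝ × ℝ, inner ℝ (fderiv ℝ f z v) (fderiv ℝ f z w) =
        a z * (v.1 * w.1) + b z * (v.1 * w.2 + v.2 * w.1) + c z * (v.2 * w.2)

theorem rat (a b c : ℝ × ℝ → ℝ) (ha : ContDiff ℝ (⊤ : ℕ∞) a) (hb : ContDiff ℝ (⊤ : ℕ∞) b)
    (hc : ContDiff ℝ (⊤ : ℕ∞) c)
    (a1 : ∀ x y, a (x + 1, y) = a (x, y)) (a2 : ∀ x y, a (x, y + 1) = a (x, y))
    (b1 : ∀ x y, b (x + 1, y) = b (x, y)) (b2 : ∀ x y, b (x, y + 1) = b (x, y))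
    (c1 : ∀ x y, c (x + 1, y) = c (x, y)) (c2 : ∀ x y, c (x, y + 1) = c (x, y))
    (hpos : ∀ z, 0 < a z) (hdet : ∀ z, 0 < a z * c z - b z ^ 2)
    (p q u v : ℤ) (huv : u * q + v * p = 1)
    (ia : ∀ (t : ℝ) x y, a (x + t * q, y + t * p) = a (x, y))
    (ib : ∀ (t : ℝ) x y, b (x + t * q, y + t * p) = b (x, y))
    (ic : ∀ (t : ℝ) x y, c (x + t * q, y + t * p) = c (x, y)) : Concl a b c := by
  have huvR : (u : ℝ) * q + v * p = 1 := by exact_mod_cast huv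
  have lin : ContDiff ℝ (⊤ : ℕ∞) (fun x : ℝ => ((v : ℝ) * x, -(u : ℝ) * x)) := by fun_prop
  have per : ∀ k : ℝ × ℝ → ℝ, (∀ x y, k (x + 1, y) = k (x, y)) → (∀ x y, k (x, y + 1) = k (x, y)) →
      ∀ x : ℝ, k ((v : ℝ) * (x + 1), -(u : ℝ) * (x + 1)) = k ((v : ℝ) * x, -(u : ℝ) * x) := by
    intro k k1 k2 x
    have h := per_int k k1 k2 v (-u) ((v : ℝ) * x) (-(u : ℝ) * x)
    rw [← h]
    congr 1
    ext <;> push_cast <;> ring
  have inv : ∀ k : ℝ × ℝ → ℝ, (∀ (t : ℝ) x y, k (x + t * q, y + t * p) = k (x, y)) →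
      ∀ z : ℝ × ℝ, k ((v : ℝ) * (p * z.1 - q * z.2), -(u : ℝ) * (p * z.1 - q * z.2)) = k z := by
    intro k hk z
    have h := hk (u * z.1 + v * z.2) ((v : ℝ) * (p * z.1 - q * z.2))
      (-(u : ℝ) * (p * z.1 - q * z.2))
    rw [← h]
    congr 1
    ext
    · have : (v : ℝ) * (p * z.1 - q * z.2) + (u * z.1 + v * z.2) * q = (u * q + v * p) * z.1 := by
        ring
      simp only []
      rw [this, huvR, one_mul]
    · have : -(u : ℝ) * (p * z.1 - q * z.2) + (u * z.1 + v * z.2) * p = (u * q + v * p) * z.2 := by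
        ring
      simp only []
      rw [this, huvR, one_mul]
  set A : ℝ → ℝ := fun x => a ((v : ℝ) * x, -(u : ℝ) * x) with hA
  set B : ℝ → ℝ := fun x => b ((v : ℝ) * x, -(u : ℝ) * x) with hB
  set C : ℝ → ℝ := fun x => c ((v : ℝ) * x, -(u : ℝ) * x) with hC
  have AC : ContDiff ℝ (⊤ : ℕ∞) A := ha.comp lin
  have BC : ContDiff ℝ (⊤ : ℕ∞) B := hb.comp lin
  have CC : ContDiff ℝ (⊤ : ℕ∞) C := hc.comp lin
  have pA : ∀ x, A (x + 1) = A x := per a a1 a2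
  have pB : ∀ x, B (x + 1) = B x := per b b1 b2
  have pC : ∀ x, C (x + 1) = C x := per c c1 c2
  have hApos : ∀ x, 0 < A x := fun x => hpos _
  have hdet' : ∀ x, 0 < A x * C x - B x ^ 2 := fun x => hdet _
  obtain ⟨f, hf, f1, f2, hin⟩ := torus
    (fun x => A x * (v : ℝ) ^ 2 + 2 * B x * (v * (-u)) + C x * (u : ℝ) ^ 2)
    (fun x => A x * (v * q) + B x * (v * p - u * q) + C x * (-u * p))
    (fun x => A x * (q : ℝ) ^ 2 + 2 * B x * (q * p) + C x * (p : ℝ) ^ 2)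
    (by fun_prop) (by fun_prop) (by fun_prop)
    (fun x => by simp only [pA, pB, pC]) (fun x => by simp only [pA, pB, pC])
    (fun x => by simp only [pA, pB, pC])
    (by
      intro x
      have h1 := hApos x
      have h2 := hdet' x
      generalize A x = A0 at *
      generalize B x = B0 at *
      generalize C x = C0 at *
      have h3 : 0 < A0 * (A0 * (q : ℝ) ^ 2 + 2 * B0 * (q * p) + C0 * (p : ℝ) ^ 2) := by
        have h4 : A0 * (A0 * (q : ℝ) ^ 2 + 2 * B0 * (q * p) + C0 * (p : ℝ) ^ 2)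
            = (A0 * q + B0 * p) ^ 2 + (A0 * C0 - B0 ^ 2) * (p : ℝ) ^ 2 := by ring
        rw [h4]
        by_cases hp : (p : ℝ) = 0
        · rw [hp] at huvR ⊢
          have hq : (q : ℝ) ≠ 0 := by
            intro hq
            rw [hq] at huvR
            simp at huvR
          have : 0 < (A0 * q + B0 * 0) ^ 2 := by
            rw [mul_zero, add_zero]
            positivity
          nlinarith
        · have : 0 < (A0 * C0 - B0 ^ 2) * (p : ℝ) ^ 2 := by positivity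
          nlinarith [sq_nonneg (A0 * q + B0 * p)]
      exact (mul_pos_iff_of_pos_left h1).1 h3)
    (by
      intro x
      have h2 := hdet' x
      generalize A x = A0 at *
      generalize B x = B0 at *
      generalize C x = C0 at *
      have h4 : (A0 * (v : ℝ) ^ 2 + 2 * B0 * (v * (-u)) + C0 * (u : ℝ) ^ 2)
          * (A0 * (q : ℝ) ^ 2 + 2 * B0 * (q * p) + C0 * (p : ℝ) ^ 2)
          - (A0 * (v * q) + B0 * (v * p - u * q) + C0 * (-u * p)) ^ 2
          = (A0 * C0 - B0 ^ 2) * (u * q + v * p) ^ 2 := by ring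
      show 0 < (A0 * (v : ℝ) ^ 2 + 2 * B0 * (v * (-u)) + C0 * (u : ℝ) ^ 2)
          * (A0 * (q : ℝ) ^ 2 + 2 * B0 * (q * p) + C0 * (p : ℝ) ^ 2)
          - (A0 * (v * q) + B0 * (v * p - u * q) + C0 * (-u * p)) ^ 2
      rw [h4, huvR]
      linarith)
  let M : ℝ × ℝ →L[ℝ] ℝ × ℝ :=
    (((p : ℝ) • ContinuousLinearMap.fst ℝ ℝ ℝ - (q : ℝ) • ContinuousLinearMap.snd ℝ ℝ ℝ).prod
      ((u : ℝ) • ContinuousLinearMap.fst ℝ ℝ ℝ + (v : ℝ) • ContinuousLinearMap.snd ℝ ℝ ℝ))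
  have hM : ∀ z : ℝ × ℝ, M z = (p * z.1 - q * z.2, u * z.1 + v * z.2) := by
    intro z
    simp [M]
  refine ⟨fun z => f (M z), hf.comp M.contDiff, ?_, ?_, ?_⟩
  · intro x y
    simp only [hM]
    have h := per_int f f1 f2 p u ((p : ℝ) * x - q * y) (u * x + v * y)
    rw [← h]
    congr 1
    ext <;> simp only [] <;> ring
  · intro x y
    simp only [hM]
    have h := per_int f f1 f2 (-q) v ((p : ℝ) * x - q * y) (u * x + v * y)
    rw [← h]
    congr 1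
    ext <;> push_cast <;> ring
  · intro z V W
    have hd : HasFDerivAt (fun z => f (M z)) ((fderiv ℝ f (M z)).comp M) z :=
      ((hf.differentiable (by simp) (M z)).hasFDerivAt).comp z M.hasFDerivAt
    rw [hd.fderiv]
    show inner ℝ (fderiv ℝ f (M z) (M V)) (fderiv ℝ f (M z) (M W)) = _
    rw [hin (M z) (M V) (M W), hM z, hM V, hM W]
    have e1 : A (p * z.1 - q * z.2) = a z := inv a ia z
    have e2 : B (p * z.1 - q * z.2) = b z := inv b ib z
    have e3 : C (p * z.1 - q * z.2) = c z := inv c ic z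
    simp only [e1, e2, e3]
    have hV1 : (v : ℝ) * (p * V.1 - q * V.2) + q * (u * V.1 + v * V.2) = V.1 := by
      linear_combination V.1 * huvR
    have hV2 : -(u : ℝ) * (p * V.1 - q * V.2) + p * (u * V.1 + v * V.2) = V.2 := by
      linear_combination V.2 * huvR
    have hW1 : (v : ℝ) * (p * W.1 - q * W.2) + q * (u * W.1 + v * W.2) = W.1 := by
      linear_combination W.1 * huvR
    have hW2 : -(u : ℝ) * (p * W.1 - q * W.2) + p * (u * W.1 + v * W.2) = W.2 := by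
      linear_combination W.2 * huvR
    generalize (p : ℝ) * V.1 - q * V.2 = X1 at *
    generalize (u : ℝ) * V.1 + v * V.2 = X2 at *
    generalize (p : ℝ) * W.1 - q * W.2 = Y1 at *
    generalize (u : ℝ) * W.1 + v * W.2 = Y2 at *
    rw [← hV1, ← hV2, ← hW1, ← hW2]
    ring

end Vale.P205.RAT
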